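import Vale.Agent.P181.R2.H866.NHeavy
import Vale.Agent.P181.R2.H280.NDefs

set_option autoImplicit false

open MvPolynomial

namespace Vale.Agent.P181.TN

open Vale.Agent.P181 Vale.Agent.P181.H536 Vale.Agent.P181.H280 Vale.Agent.P181.R2.H866

/-- The condition `QQ` in terms of the coefficients. -/
lemma QQ_iff_Dev {n s b a : ℕ} (F : Fm n a) :
    QQ s b F ↔ ∀ z ∈ ZZ n, DZ (X 0) (X 1) z (linS (n + 2)) (b - 1) s F := by
  constructor
  · intro hQ z hz j hj x g hg
    obtain ⟨p, hp, hpe⟩ := hQ x z hz g hg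
    by_cases hja : j ≤ a
    · have h1 : p = ∑ k ∈ Finset.range (a + 1),
          Polynomial.C (Dev z k (lin (X 0) (X 1) x) F g) * Polynomial.X ^ k := by
        apply Polynomial.funext
        intro c
        rw [hpe, Polynomial.eval_finsetSum]
        have h2 := gen z (ln n x) F g c
        rw [h2]
        apply Finset.sum_congr rfl
        intro k _
        rw [Polynomial.eval_mul, Polynomial.eval_C, Polynomial.eval_pow, Polynomial.eval_X,
          mul_comm]
        rfl
      have h3 := (Polynomial.degree_lt_iff_coeff_zero p s).1 hp j hj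
      rw [h1, Polynomial.finsetSum_coeff] at h3
      simp only [Polynomial.coeff_C_mul, Polynomial.coeff_X_pow] at h3
      rw [Finset.sum_eq_single j] at h3
      · simpa using h3
      · intro k _ hk
        rw [if_neg (Ne.symm hk), mul_zero]
      · intro hjn
        exact absurd (Finset.mem_range.2 (by omega)) hjn
    · exact Dev_of_lt _ (by omega) _ _ _
  · intro hD x z hz g hg
    refine ⟨∑ k ∈ Finset.range (a + 1),
          Polynomial.C (Dev z k (lin (X 0) (X 1) x) F g) * Polynomial.X ^ k, ?_, ?_⟩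
    · rw [Polynomial.degree_lt_iff_coeff_zero]
      intro j hj
      rw [Polynomial.finsetSum_coeff]
      apply Finset.sum_eq_zero
      intro k _
      rw [Polynomial.coeff_C_mul, Polynomial.coeff_X_pow]
      by_cases hjk : j = k
      · rw [← hjk, hD z hz j hj x g hg, zero_mul]
      · rw [if_neg hjk, mul_zero]
    · intro c
      rw [Polynomial.eval_finsetSum]
      have h2 := gen z (ln n x) F g c
      rw [h2]
      apply Finset.sum_congr rfl
      intro k _
      rw [Polynomial.eval_mul, Polynomial.eval_C, Polynomial.eval_pow, Polynomial.eval_X,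
        mul_comm]
      rfl

/-- **N5** heavy step, for all forms of degree `b - k` as cofactor. -/
theorem heavy_full {n m b k s : ℕ} (hb : 1 ≤ b) (hs : 1 ≤ s) (hk : k ≤ b) (hmk : m + 1 ≤ k)
    (F : Fm n (m + 1)) (hQ : QQ s b F) {w : Sn n} (hw : w ∈ ZZ n ^ k) {B : Sn n}
    (hB : B ∈ linS (n + 2) ^ (b - k)) : QQ (s - 1) b (F.curryLeft (w * B)) := by
  obtain ⟨b, rfl⟩ : ∃ b', b = b' + 1 := ⟨b - 1, by omega⟩
  obtain ⟨s, rfl⟩ : ∃ s', s = s' + 1 := ⟨s - 1, by omega⟩
  rw [QQ_iff_Dev] at hQ ⊢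
  rw [Nat.add_sub_cancel] at hQ ⊢
  intro z hz
  exact heavyN (X_mem_linS _) (X_mem_linS _) ZZ_le hQ hmk hk hw hB hz

/-- **N5** heavy step. -/
theorem heavy {n m b k s : ℕ} (hb : 1 ≤ b) (hs : 1 ≤ s) (hk : k ≤ b) (hmk : m + 1 ≤ k)
    (F : Fm n (m + 1)) (hQ : QQ s b F) {w : Sn n} (hw : w ∈ ZZ n ^ k) {A : Sn n}
    (hA : A ∈ U2 n ^ (b - k)) : QQ (s - 1) b (F.curryLeft (w * A)) :=
  heavy_full hb hs hk hmk F hQ hw (pow_le_pow_left' U2_le _ hA)

/-- **N5** light step. -/
theorem light {n m b k s : ℕ} (hs : 1 ≤ s) (hk : k < b) (hm : m < b - k + s)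
    (F : Fm n (m + 1)) (hQ : QQ s b F) (hT : Top b k F) {w : Sn n} (hw : w ∈ ZZ n ^ k)
    {A : Sn n} (hA : A ∈ U2 n ^ (b - k)) : QQ s b (F.curryLeft (w * A)) := by
  obtain ⟨b, rfl⟩ : ∃ b', b = b' + 1 := ⟨b - 1, by omega⟩
  rw [QQ_iff_Dev] at hQ ⊢
  rw [Nat.add_sub_cancel] at hQ ⊢
  intro z hz
  exact lightN (X_mem_linS _) (X_mem_linS _) ZZ_le hz (hQ z hz)
    (fun j hj hjb w hw h hh g hg => hT j hj hjb w hw h hh g hg) (by omega) (by omega) hw hA

end Vale.Agent.P181.TN
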