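import Vale.Agent.P181.R2.H866.NHL

set_option autoImplicit false

open MvPolynomial

namespace Vale.Agent.P181.R2.H866

open Vale.Agent.P181 Vale.Agent.P181.H536

variable {A : Type*} [CommRing A] [Algebra ℂ A]

/-- The form `D_k(ξ)F`. -/
noncomputable def Dform (z : A) {a : ℕ} (k : ℕ) (ξ : A) (F : ML A a) : ML A a :=
  ∑ I ∈ (Finset.univ : Finset (Fin a)).powersetCard k, mulArg F (fun i => if i ∈ I then z else ξ)

lemma Dform_apply (z : A) {a : ℕ} (k : ℕ) (ξ : A) (F : ML A a) (g : Fin a → A) :
    Dform z k ξ F g = Dev z k ξ F g := by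
  rw [Dform, sum_apply, Dev]
  rfl

lemma Dform_symm (z : A) {a : ℕ} (k : ℕ) (ξ : A) {F : ML A a} (hF : IsSymm F) :
    IsSymm (Dform z k ξ F) := by
  classical
  intro σ P
  rw [Dform_apply, Dform_apply, Dev, Dev]
  refine Finset.sum_bij' (fun I _ => I.map σ.toEmbedding) (fun I _ => I.map σ.symm.toEmbedding)
    ?_ ?_ ?_ ?_ ?_
  · intro I hI
    rw [Finset.mem_powersetCard] at hI ⊢
    exact ⟨Finset.subset_univ _, by rw [Finset.card_map]; exact hI.2⟩
  · intro I hI
    rw [Finset.mem_powersetCard] at hI ⊢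
    exact ⟨Finset.subset_univ _, by rw [Finset.card_map]; exact hI.2⟩
  · intro I _
    ext i
    simp
  · intro I _
    ext i
    simp
  · intro I _
    rw [← hF σ (fun i => (if i ∈ I.map σ.toEmbedding then z else ξ) * P i)]
    congr 1
    funext i
    have h1 : σ i ∈ I.map σ.toEmbedding ↔ i ∈ I := by simp
    by_cases hi : i ∈ I
    · rw [if_pos hi, if_pos (h1.2 hi)]
    · rw [if_neg hi, if_neg (fun h => hi (h1.1 h))]

lemma coeff_zero_of_sum {N : ℕ} {u : ℕ → ℂ}
    (h : ∀ c : ℂ, ∑ j ∈ Finset.range N, c ^ j * u j = 0) {j : ℕ} (hj : j < N) : u j = 0 := by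
  have h1 : (∑ i ∈ Finset.range N, Polynomial.C (u i) * Polynomial.X ^ i : Polynomial ℂ) = 0 := by
    apply Polynomial.funext
    intro c
    simp only [Polynomial.eval_finsetSum, Polynomial.eval_mul, Polynomial.eval_C,
      Polynomial.eval_pow, Polynomial.eval_X, Polynomial.eval_zero]
    simpa only [mul_comm] using h c
  have h2 := congrArg (fun q => q.coeff j) h1
  simp only [Polynomial.finsetSum_coeff, Polynomial.coeff_C_mul, Polynomial.coeff_X_pow,
    Polynomial.coeff_zero] at h2
  simpa [hj] using h2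

lemma Dform_isK {L : Submodule ℂ A} {a b : ℕ} {F : ML A a} (hF : IsK L (b + 1) F) {z ξ : A}
    (hz : z ∈ L) (hξ : ξ ∈ L) (k : ℕ) : IsK L b (Dform z k ξ F) := by
  intro m hm hmL
  rw [Dform_apply]
  by_cases hk : k ≤ a
  · refine coeff_zero_of_sum (N := a + 1) (u := fun k => Dev z k ξ F (fun _ => m.prod)) ?_
      (by omega)
    intro c
    rw [← gen]
    have h1 := hF ((ξ + c • z) ::ₘ m) (by rw [Multiset.card_cons, hm]) (by
      intro x hx
      rcases Multiset.mem_cons.1 hx with rfl | hx
      · exact L.add_mem hξ (L.smul_mem _ hz)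
      · exact hmL x hx)
    rw [Multiset.prod_cons] at h1
    exact h1
  · exact Dev_of_lt z (by omega) _ _ _

/-- `Dev` along a line of the parameter. -/
lemma Dev_line {a : ℕ} (F : ML A a) (z y ξ : A) (j : ℕ) (g : Fin a → A) :
    ∃ P : Polynomial ℂ, ∀ μ : ℂ, P.eval μ = Dev (z + μ • y) j ξ F g := by
  classical
  have h1 : ∀ I ∈ (Finset.univ : Finset (Fin a)).powersetCard j, ∃ P : Polynomial ℂ,
      ∀ μ : ℂ, P.eval μ = F (fun i => (if i ∈ I then (z + μ • y) else ξ) * g i) := by
    intro I _
    obtain ⟨P, -, hPe⟩ := poly_line F (fun i => (if i ∈ I then z else ξ) * g i)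
      (fun i => (if i ∈ I then y else 0) * g i) Finset.univ
      (fun i hi => absurd (Finset.mem_univ i) hi)
    refine ⟨P, fun μ => ?_⟩
    rw [hPe]
    congr 1
    funext i
    by_cases hi : i ∈ I
    · rw [if_pos hi, if_pos hi, if_pos hi, add_mul, smul_mul_assoc]
    · rw [if_neg hi, if_neg hi, if_neg hi, zero_mul, smul_zero, add_zero]
  choose! P hPe using h1
  refine ⟨∑ I ∈ (Finset.univ : Finset (Fin a)).powersetCard j, P I, fun μ => ?_⟩
  rw [Polynomial.eval_finsetSum, Dev]
  exact Finset.sum_congr rfl (fun I hI => hPe I hI μ)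

/-- The top coefficient is invariant. -/
lemma Dev_inv {a : ℕ} (F : ML A a) {z z' ξ : A} {e : ℕ} (g : Fin a → A) (σ : A →ₐ[ℂ] A)
    (hσξ : σ ξ = ξ + z') (hσz : σ z = z) (hσz' : σ z' = z')
    (hF : ∀ c : ℂ, F (fun i => σ ((ξ + (c • z - z')) * g i)) =
      F (fun i => (ξ + (c • z - z')) * g i))
    (h1 : ∀ j, e < j → Dev z j ξ F (fun i => σ (g i)) = 0)
    (h2 : ∀ j, e < j → ∀ μ : ℂ, Dev (z + μ • (-z')) j ξ F g = 0) :
    Dev z e ξ F (fun i => σ (g i)) = Dev z e ξ F g := by
  choose P hP using fun j => Dev_line F z (-z') ξ j g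
  have hkey : (∑ j ∈ Finset.range (e + 1), Polynomial.C (Dev z j ξ F (fun i => σ (g i))) *
      Polynomial.X ^ (e - j) : Polynomial ℂ) =
      ∑ j ∈ Finset.range (e + 1), P j * Polynomial.X ^ (e - j) := by
    apply Polynomial.eq_of_infinite_eval_eq
    apply Set.Infinite.mono (s := ({0} : Set ℂ)ᶜ)
    · intro μ hμ
      have hμ0 : μ ≠ 0 := hμ
      rw [Set.mem_ofPred_eq, Polynomial.eval_finsetSum, Polynomial.eval_finsetSum]
      simp only [Polynomial.eval_mul, Polynomial.eval_C, Polynomial.eval_pow, Polynomial.eval_X, hP]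
      have e1 : F (fun i => (ξ + μ⁻¹ • z) * σ (g i)) =
          F (fun i => (ξ + μ⁻¹ • (z + μ • (-z'))) * g i) := by
        have h3 := hF μ⁻¹
        have h4 : (fun i => σ ((ξ + (μ⁻¹ • z - z')) * g i)) =
            fun i => (ξ + μ⁻¹ • z) * σ (g i) := by
          funext i
          rw [map_mul, map_add, map_sub, map_smul, hσξ, hσz, hσz']
          congr 1
          abel
        have h5 : ξ + (μ⁻¹ • z - z') = ξ + μ⁻¹ • (z + μ • (-z')) := by
          rw [smul_add, smul_smul, inv_mul_cancel₀ hμ0, one_smul, sub_eq_add_neg]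
        rw [h4, h5] at h3
        exact h3
      rw [gen, gen] at e1
      have trunc : ∀ u : ℕ → ℂ, (∀ j, e < j → u j = 0) → (∀ j, a < j → u j = 0) →
          ∑ j ∈ Finset.range (a + 1), μ⁻¹ ^ j * u j = ∑ j ∈ Finset.range (e + 1), μ⁻¹ ^ j * u j := by
        intro u hu hu'
        rcases le_total a e with h | h
        · apply Finset.sum_subset (Finset.range_mono (by omega))
          intro j _ hj
          rw [Finset.mem_range] at hj
          rw [hu' j (by omega), mul_zero]
        · symm
          apply Finset.sum_subset (Finset.range_mono (by omega))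
          intro j _ hj
          rw [Finset.mem_range] at hj
          rw [hu j (by omega), mul_zero]
      rw [trunc _ h1 (fun j hj => Dev_of_lt _ hj _ _ _),
        trunc _ (fun j hj => h2 j hj μ) (fun j hj => Dev_of_lt _ hj _ _ _)] at e1
      have fin : ∀ u : ℕ → ℂ, ∑ j ∈ Finset.range (e + 1), u j * μ ^ (e - j) =
          μ ^ e * ∑ j ∈ Finset.range (e + 1), μ⁻¹ ^ j * u j := by
        intro u
        rw [Finset.mul_sum]
        apply Finset.sum_congr rfl
        intro j hj
        rw [Finset.mem_range] at hj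
        have h6 : μ ^ e = μ ^ (e - j) * μ ^ j := by rw [← pow_add]; congr 1; omega
        rw [h6, inv_pow]
        field_simp
      rw [fin, fin, e1]
    · exact (Set.finite_singleton (0 : ℂ)).infinite_compl
  have h0 := congrArg (Polynomial.eval 0) hkey
  rw [Polynomial.eval_finsetSum, Polynomial.eval_finsetSum] at h0
  simp only [Polynomial.eval_mul, Polynomial.eval_C, Polynomial.eval_pow, Polynomial.eval_X, hP]
    at h0
  have h7 : ∀ u : ℕ → ℂ, ∑ j ∈ Finset.range (e + 1), u j * (0 : ℂ) ^ (e - j) = u e := by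
    intro u
    rw [Finset.sum_eq_single e]
    · rw [Nat.sub_self, pow_zero, mul_one]
    · intro j hj hje
      rw [Finset.mem_range] at hj
      rw [zero_pow (by omega), mul_zero]
    · intro h
      exact absurd (Finset.mem_range.2 (Nat.lt_succ_self e)) h
  rw [h7, h7, zero_smul, add_zero] at h0
  exact h0

end Vale.Agent.P181.R2.H866

namespace Vale.Agent.P181.TN

open Vale.Agent.P181 Vale.Agent.P181.H536 Vale.Agent.P181.H280 Vale.Agent.P181.R2.H866

variable {n : ℕ}

lemma Dev_scal {a b t k : ℕ} {F : Fm n a} (hH : Hom (b + 1) t F) {z : Sn n} (hz : z ∈ ZZ n)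
    (x c : ℂ) (hc : c ≠ 0) {g : Fin a → Sn n} (hg : Dg b g) :
    c ^ k * Dev z k (ln n x) F (fun i => scal n c (g i)) = c ^ t * Dev z k (ln n x) F g := by
  rw [Dev, Dev, Finset.mul_sum, Finset.mul_sum]
  apply Finset.sum_congr rfl
  intro I hI
  have h1 := hH c hc (fun i => (if i ∈ I then z else ln n x) * g i) (by
    intro i
    rw [pow_succ']
    refine Submodule.mul_mem_mul ?_ (hg i)
    split_ifs
    · exact ZZ_le hz
    · exact ln_mem x)
  rw [← h1]
  have h2 : (fun i => scal n c ((if i ∈ I then z else ln n x) * g i)) =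
      fun i => (if i ∈ I then c else 1) • ((if i ∈ I then z else ln n x) * scal n c (g i)) := by
    funext i
    rw [map_mul]
    by_cases hi : i ∈ I
    · rw [if_pos hi, if_pos hi, scal_Z hz, smul_mul_assoc]
    · rw [if_neg hi, if_neg hi, scal_ln, one_smul]
  rw [h2, MultilinearMap.map_smul_univ, smul_eq_mul]
  congr 1
  rw [Finset.prod_ite_mem, Finset.univ_inter, Finset.prod_const, (Finset.mem_powersetCard.1 hI).2]

lemma Dev_zero_of_weight {a b t k : ℕ} {F : Fm n a} (hH : Hom (b + 1) t F) {z : Sn n}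
    (hz : z ∈ ZZ n) (x : ℂ) (hk : t < k) {g : Fin a → Sn n} (hg : Dg b g) :
    Dev z k (ln n x) F g = 0 := by
  have hg' : ∀ i, g i ∈ (Submodule.span ℂ {(X 0 : Sn n), X 1} ⊔ ZZ n) ^ b := by
    intro i
    rw [sup_eq]
    exact hg i
  choose R hR using fun i => tau_curve (setup n) b (g i) (hg' i)
  obtain ⟨Q, -, hQ⟩ := poly_curve (Dform z k (ln n x) F) R (fun i => (R i).natDegree)
    (fun i => le_rfl)
  simp only [hR] at hQ
  have hkey : Polynomial.X ^ (k - t) * Q = Polynomial.C (Dev z k (ln n x) F g) := by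
    apply Polynomial.eq_of_infinite_eval_eq
    apply Set.Infinite.mono (s := ({0} : Set ℂ)ᶜ)
    · intro c hc
      have hc0 : c ≠ 0 := hc
      rw [Set.mem_ofPred_eq, Polynomial.eval_mul, Polynomial.eval_pow, Polynomial.eval_X,
        Polynomial.eval_C, hQ, Dform_apply]
      have h1 := Dev_scal (k := k) hH hz x c hc0 hg
      have h2 : c ^ k = c ^ t * c ^ (k - t) := by rw [← pow_add]; congr 1; omega
      rw [h2, mul_assoc] at h1
      exact mul_left_cancel₀ (pow_ne_zero _ hc0) h1
    · exact (Set.finite_singleton (0 : ℂ)).infinite_compl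
  have h0 := congrArg (Polynomial.eval 0) hkey
  rw [Polynomial.eval_mul, Polynomial.eval_pow, Polynomial.eval_X, Polynomial.eval_C,
    zero_pow (by omega), zero_mul] at h0
  exact h0.symm

/-- **N7.** -/
theorem tstep {n s a b t : ℕ} (hs : 1 ≤ s) (hK : ∀ t', t' + s ≤ t → KK n a b t') (F : Fm n a)
    (hsy : IsSymm F) (hI : Inv (b + 1) F) (hH : Hom (b + 1) t F)
    (hF : IsK (linS (n + 2)) (b + 1) F) : QQ s (b + 1) F := by
  rw [QQ_iff_Dev]
  rw [Nat.add_sub_cancel]
  have main : ∀ d e, a < e + d → s ≤ e → ∀ z ∈ ZZ n, ∀ (x : ℂ) (g : Fin a → Sn n),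
      (∀ i, g i ∈ linS (n + 2) ^ b) → Dev z e (ln n x) F g = 0 := by
    intro d
    induction d with
    | zero =>
      intro e he _ z _ x g _
      exact Dev_of_lt z he _ _ _
    | succ d ih =>
      intro e he hse z hz x g hg
      rcases lt_or_ge t e with hte | hte
      · exact Dev_zero_of_weight hH hz x hte hg
      · have hV : Van b (Dform z e (ln n x) F) := by
          apply hK (t - e) (by omega)
          · exact Dform_symm z e _ hsy
          · intro z' hz' P hP
            rw [Dform_apply, Dform_apply]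
            apply Dev_inv F P (sh n z') (sh_ln z' x) (sh_Z hz) (sh_Z hz')
            · intro c
              apply hI z' hz'
              intro i
              rw [pow_succ']
              exact Submodule.mul_mem_mul
                (line_mem ((ZZ n).sub_mem ((ZZ n).smul_mem _ hz) hz') x) (hP i)
            · intro j hj
              exact ih j (by omega) (by omega) z hz x _ (fun i => sh_mem hz' (hP i))
            · intro j hj μ
              exact ih j (by omega) (by omega) _
                ((ZZ n).add_mem hz ((ZZ n).smul_mem _ ((ZZ n).neg_mem hz'))) x _ hP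
          · intro c hc P hP
            rw [Dform_apply, Dform_apply]
            have h1 := Dev_scal (k := e) hH hz x c hc hP
            have h2 : c ^ t = c ^ e * c ^ (t - e) := by rw [← pow_add]; congr 1; omega
            rw [h2, mul_assoc] at h1
            exact mul_left_cancel₀ (pow_ne_zero _ hc) h1
          · exact Dform_isK hF (ZZ_le hz) (ln_mem x) e
        rw [← Dform_apply]
        exact hV g hg
  intro z hz j hj x g hg
  exact main (a + 1) j (by omega) hj z hz x g hg

end Vale.Agent.P181.TN
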