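import Vale.Agent.P181.R2.H866.AStep

set_option autoImplicit false

open Polynomial

namespace Vale.Agent.P181.R2.H866

open Vale.Agent.P181 H536

variable {A : Type*} [CommRing A] [Algebra ℂ A]

/-- Multilinear forms along polynomial curves, with a degree bound. -/
lemma poly_curve {a : ℕ} (G : ML A a) (R : Fin a → A[X]) (d : Fin a → ℕ)
    (hR : ∀ i, (R i).natDegree ≤ d i) :
    ∃ P : ℂ[X], P.natDegree ≤ ∑ i, d i ∧
      ∀ η : ℂ, P.eval η = G (fun i => (R i).eval (algebraMap ℂ A η)) := by
  classical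
  refine ⟨∑ r ∈ Fintype.piFinset (fun i => Finset.range (d i + 1)),
    C (G (fun i => (R i).coeff (r i))) * X ^ (∑ i, r i), ?_, fun η => ?_⟩
  · apply natDegree_sum_le_of_forall_le
    intro r hr
    refine (natDegree_C_mul_X_pow_le _ _).trans (Finset.sum_le_sum fun i _ => ?_)
    have h1 := Fintype.mem_piFinset.1 hr i
    rw [Finset.mem_range] at h1
    omega
  · have h1 : (fun i => (R i).eval (algebraMap ℂ A η)) =
        fun i => ∑ l ∈ Finset.range (d i + 1), η ^ l • (R i).coeff l := by
      funext i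
      rw [Polynomial.eval_eq_sum_range' (Nat.lt_succ_of_le (hR i))]
      apply Finset.sum_congr rfl
      intro l _
      rw [Algebra.smul_def, map_pow, mul_comm]
    rw [h1, MultilinearMap.map_sum_finset, eval_finsetSum]
    apply Finset.sum_congr rfl
    intro r _
    rw [MultilinearMap.map_smul_univ, eval_mul, eval_C, eval_pow, eval_X, smul_eq_mul,
      Finset.prod_pow_eq_pow_sum, mul_comm]

/-- `Dev` along a line of the parameter `z`. -/
lemma Dev_curve {a : ℕ} (F : ML A (a + 1)) (y v ξ : A) (j : ℕ) (W : A[X]) (e : ℕ)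
    (hW : W.natDegree ≤ e) (g : Fin a → A) :
    ∃ P : ℂ[X], P.natDegree ≤ e + j ∧ ∀ η : ℂ, P.eval η =
      Dev (y + η • v) j ξ (F.curryLeft (W.eval (algebraMap ℂ A η))) g := by
  classical
  have h1 : ∀ I ∈ (Finset.univ : Finset (Fin a)).powersetCard j, ∃ P : ℂ[X],
      P.natDegree ≤ e + j ∧ ∀ η : ℂ, P.eval η =
        F.curryLeft (W.eval (algebraMap ℂ A η))
          (fun i => (if i ∈ I then (y + η • v) else ξ) * g i) := by
    intro I hI
    obtain ⟨P, hP, hPe⟩ := poly_curve F
      (Fin.cons W (fun i => (if i ∈ I then (C y + X * C v) else C ξ) * C (g i)))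
      (Fin.cons e (fun i => if i ∈ I then 1 else 0)) (by
        intro i
        refine Fin.cases ?_ (fun i => ?_) i
        · rw [Fin.cons_zero, Fin.cons_zero]; exact hW
        · rw [Fin.cons_succ, Fin.cons_succ]
          refine (natDegree_mul_C_le _ _).trans ?_
          split_ifs
          · compute_degree
          · rw [natDegree_C])
    refine ⟨P, ?_, fun η => ?_⟩
    · refine hP.trans (le_of_eq ?_)
      rw [Fin.sum_univ_succ, Fin.cons_zero]
      simp only [Fin.cons_succ]
      rw [Finset.sum_ite_mem, Finset.univ_inter, Finset.sum_const, smul_eq_mul, mul_one,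
        (Finset.mem_powersetCard.1 hI).2]
    · rw [hPe, MultilinearMap.curryLeft_apply]
      congr 1
      funext i
      refine Fin.cases ?_ (fun i => ?_) i
      · rw [Fin.cons_zero, Fin.cons_zero]
      · rw [Fin.cons_succ, Fin.cons_succ]
        by_cases hi : i ∈ I
        · rw [if_pos hi, if_pos hi, eval_mul, eval_add, eval_C, eval_mul, eval_X, eval_C, eval_C,
            Algebra.smul_def]
        · rw [if_neg hi, if_neg hi, eval_mul, eval_C, eval_C]
  choose! P hP hPe using h1
  refine ⟨∑ I ∈ (Finset.univ : Finset (Fin a)).powersetCard j, P I,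
    natDegree_sum_le_of_forall_le _ _ hP, fun η => ?_⟩
  rw [eval_finsetSum, Dev]
  exact Finset.sum_congr rfl (fun I hI => hPe I hI η)

/-- `Dev` as a linear functional of the first argument. -/
noncomputable def DevL (z : A) {a : ℕ} (j : ℕ) (ξ : A) (F : ML A (a + 1)) (g : Fin a → A) :
    A →ₗ[ℂ] ℂ where
  toFun w := Dev z j ξ (F.curryLeft w) g
  map_add' u v := by
    simp only [Dev, map_add, add_apply]
    rw [Finset.sum_add_distrib]
  map_smul' c u := by
    simp only [Dev, map_smul, smul_apply, smul_eq_mul, RingHom.id_apply]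
    rw [Finset.mul_sum]

lemma DevL_apply (z : A) {a : ℕ} (j : ℕ) (ξ : A) (F : ML A (a + 1)) (g : Fin a → A) (w : A) :
    DevL z j ξ F g w = Dev z j ξ (F.curryLeft w) g := rfl

/-- Heavy step at a power. -/
lemma heavyN_pow {p q : A} {Z L : Submodule ℂ A} {b s a : ℕ} {F : ML A (a + 1)}
    (hp : p ∈ L) (hq : q ∈ L) (hZ : Z ≤ L) (hF : ∀ z ∈ Z, DZ p q z L b (s + 1) F) {k : ℕ}
    (hk : a + 1 ≤ k) (hkb : k ≤ b + 1) {v : A} (hv : v ∈ Z) {h : A} (hh : h ∈ L ^ (b + 1 - k))
    {y : A} (hy : y ∈ Z) : DZ p q y L b s (F.curryLeft (v ^ k * h)) := by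
  intro j hj x g hg
  by_cases hja : a < j
  · exact Dev_of_lt _ hja _ _ _
  push Not at hja
  set ξ := lin p q x with hξ
  obtain ⟨P2, -, hP2⟩ := Dev_curve F y v ξ j (C (v ^ k * h)) 0 (natDegree_C _).le g
  have hc1 : ∀ i ∈ Finset.range (a + 1 - j), ∃ P : ℂ[X], P.natDegree ≤ a ∧ ∀ η : ℂ, P.eval η =
      (k.choose i : ℂ) * Dev (y + η • v) j ξ
        (F.curryLeft ((y + η • v) ^ i * ((-y) ^ (k - i) * h))) g := by
    intro i hi
    rw [Finset.mem_range] at hi
    obtain ⟨P, hP, hPe⟩ := Dev_curve F y v ξ j ((C y + X * C v) ^ i * C ((-y) ^ (k - i) * h)) i (by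
      refine (natDegree_mul_C_le _ _).trans ?_
      refine natDegree_pow_le_of_le i (m := 1) (by compute_degree) |>.trans ?_
      omega) g
    refine ⟨C (k.choose i : ℂ) * P, (natDegree_C_mul_le _ _).trans (hP.trans (by omega)),
      fun η => ?_⟩
    rw [eval_mul, eval_C, hPe]
    simp only [eval_mul, eval_pow, eval_add, eval_C, eval_X, Algebra.smul_def]
  choose! P hP hPe using hc1
  have hkey : X ^ k * P2 = ∑ i ∈ Finset.range (a + 1 - j), P i := by
    apply Polynomial.funext
    intro η
    rw [eval_mul, eval_pow, eval_X, hP2, eval_C, eval_finsetSum]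
    have h1 : η ^ k * Dev (y + η • v) j ξ (F.curryLeft (v ^ k * h)) g =
        DevL (y + η • v) j ξ F g ((η • v) ^ k * h) := by
      rw [smul_pow, smul_mul_assoc, map_smul, smul_eq_mul, DevL_apply]
    rw [h1]
    have h2 : (η • v : A) = (y + η • v) + (-y) := by abel
    have h3 : ((η • v : A)) ^ k * h =
        ∑ i ∈ Finset.range (k + 1),
          (k.choose i : ℂ) • ((y + η • v) ^ i * ((-y) ^ (k - i) * h)) := by
      conv_lhs => rw [h2]
      rw [add_pow, Finset.sum_mul]
      apply Finset.sum_congr rfl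
      intro i _
      rw [Algebra.smul_def (k.choose i : ℂ), map_natCast]
      ring
    rw [h3, map_sum]
    have h4 : ∀ i ∈ Finset.range (k + 1), i ∉ Finset.range (a + 1 - j) →
        DevL (y + η • v) j ξ F g
          ((k.choose i : ℂ) • ((y + η • v) ^ i * ((-y) ^ (k - i) * h))) = 0 := by
      intro i hi hi2
      rw [Finset.mem_range] at hi hi2
      have hz : y + η • v ∈ Z := Z.add_mem hy (Z.smul_mem _ hv)
      rw [map_smul, DevL_apply, hξ, heavy_aux hp hq (hZ hz) (hF _ hz) x g hg (a + 1) j i _ (by omega)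
        hj (by omega) (by omega) (by
          have h5 : b + 1 - i = (k - i) + (b + 1 - k) := by omega
          rw [h5, pow_add]
          exact Submodule.mul_mem_mul (Submodule.pow_mem_pow _ (L.neg_mem (hZ hy)) _) hh),
        smul_zero]
    rw [← Finset.sum_subset (fun i hi => by
      rw [Finset.mem_range] at hi ⊢; omega) h4]
    apply Finset.sum_congr rfl
    intro i hi
    rw [map_smul, DevL_apply, hPe i hi, smul_eq_mul]
  have h0 : P2 = 0 := by
    by_contra hne
    have h1 : (X ^ k * P2).natDegree ≤ a := by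
      rw [hkey]
      exact natDegree_sum_le_of_forall_le _ _ hP
    rw [natDegree_mul (pow_ne_zero _ X_ne_zero) hne, natDegree_X_pow] at h1
    omega
  have h1 := hP2 0
  rw [h0, eval_zero, eval_C, zero_smul, add_zero] at h1
  exact h1.symm

/-- **Heavy step, general.** -/
theorem heavyN {p q : A} {Z L : Submodule ℂ A} {b s a : ℕ} {F : ML A (a + 1)}
    (hp : p ∈ L) (hq : q ∈ L) (hZ : Z ≤ L) (hF : ∀ z ∈ Z, DZ p q z L b (s + 1) F) {k : ℕ}
    (hk : a + 1 ≤ k) (hkb : k ≤ b + 1) {w : A} (hw : w ∈ Z ^ k) {h : A} (hh : h ∈ L ^ (b + 1 - k))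
    {y : A} (hy : y ∈ Z) : DZ p q y L b s (F.curryLeft (w * h)) := by
  intro j hj x g hg
  have hw' := pow_le_span_pow _ _ hw
  clear hw
  rw [← DevL_apply]
  induction hw' using Submodule.span_induction with
  | mem w hw =>
    obtain ⟨v, hv, rfl⟩ := hw
    exact heavyN_pow hp hq hZ hF hk hkb hv hh hy j hj x g hg
  | zero => rw [zero_mul, map_zero]
  | add u v _ _ hu hv => rw [add_mul, map_add, hu, hv, add_zero]
  | smul c u _ hu => rw [smul_mul_assoc, map_smul, hu, smul_zero]

/-- No exponent of `Z` above `k` in the first argument (level `b`). -/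
def TopN (p q : A) (Z L : Submodule ℂ A) (b k : ℕ) {a : ℕ} (F : ML A (a + 1)) : Prop :=
  ∀ (j : ℕ), k < j → j ≤ b → ∀ w ∈ Z ^ j, ∀ h ∈ (Submodule.span ℂ {p, q}) ^ (b - j),
    ∀ g : Fin a → A, (∀ i, g i ∈ L ^ b) → F (Fin.cons (w * h) g) = 0

/-- Light step on products. -/
lemma lightN_relation {p q : A} {Z L : Submodule ℂ A} {b s a k : ℕ} {F : ML A (a + 1)}
    (hp : p ∈ L) (hq : q ∈ L) (hZ : Z ≤ L) {y : A} (hy : y ∈ Z) (hF : DZ p q y L b s F)
    (hT : TopN p q Z L (b + 1) k F) (hkb : k ≤ b) {j : ℕ} (hj : s ≤ j) (x : ℂ) {w : A}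
    (hw : w ∈ Z ^ k) {h : A} (hh : h ∈ (Submodule.span ℂ {p, q}) ^ (b - k)) {g : Fin a → A}
    (hg : ∀ i, g i ∈ L ^ b) :
    Dev y j (lin p q x) (F.curryLeft (w * (lin p q x * h))) g = 0 := by
  have hUL : Submodule.span ℂ {p, q} ≤ L := by
    rw [Submodule.span_le]
    rintro _ (rfl | rfl)
    · exact hp
    · exact hq
  have hwh : w * h ∈ L ^ b := by
    have h1 : L ^ b = L ^ k * L ^ (b - k) := by rw [← pow_add]; congr 1; omega
    rw [h1]
    exact Submodule.mul_mem_mul (pow_le_pow_left' hZ _ hw) (pow_le_pow_left' hUL _ hh)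
  have h6 := hF j hj x (Fin.cons (w * h) g) (cons_mem hwh hg)
  have hlin : lin p q x ∈ L := L.add_mem hp (L.smul_mem _ hq)
  have h7 : y * (w * h) = (w * y) * h := by ring
  have h8 : lin p q x * (w * h) = w * (lin p q x * h) := by ring
  rcases Nat.eq_zero_or_pos j with rfl | hj0
  · rw [Dev_cons_zero, h8] at h6
    exact h6
  · obtain ⟨j, rfl⟩ : ∃ j', j = j' + 1 := ⟨j - 1, by omega⟩
    rw [Dev_cons, h7, h8] at h6
    have h9 : Dev y j (lin p q x) (F.curryLeft ((w * y) * h)) g = 0 := by
      rw [Dev]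
      apply Finset.sum_eq_zero
      intro I _
      rw [MultilinearMap.curryLeft_apply]
      apply hT (k + 1) (by omega) (by omega) (w * y) (by
        rw [pow_succ]; exact Submodule.mul_mem_mul hw hy) h (by
        have : b + 1 - (k + 1) = b - k := by omega
        rwa [this])
      intro i
      rw [pow_succ']
      refine Submodule.mul_mem_mul ?_ (hg i)
      split_ifs
      · exact hZ hy
      · exact hlin
    rw [h9, zero_add] at h6
    exact h6

/-- **Light step, general.** -/
theorem lightN {p q : A} {Z L : Submodule ℂ A} {b s a k : ℕ} {F : ML A (a + 1)}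
    (hp : p ∈ L) (hq : q ∈ L) (hZ : Z ≤ L) {y : A} (hy : y ∈ Z) (hF : DZ p q y L b s F)
    (hT : TopN p q Z L (b + 1) k F) (hc : a + k < b + 1 + s) (hkb : k ≤ b) {w : A}
    (hw : w ∈ Z ^ k) {h : A} (hh : h ∈ (Submodule.span ℂ {p, q}) ^ (b + 1 - k)) :
    DZ p q y L b s (F.curryLeft (w * h)) := by
  intro j hj x g hg
  have hh' := le_span_distinct p q _ hh
  clear hh
  rw [← DevL_apply]
  induction hh' using Submodule.span_induction with
  | mem h hh =>
    obtain ⟨T, hTc, hTn, rfl⟩ := hh
    rw [DevL_apply]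
    apply Dev_zero_of_roots p q y j _ g T hTn (by omega)
    intro x' hx'
    obtain ⟨T', rfl⟩ := Multiset.exists_cons_of_mem hx'
    rw [Multiset.card_cons] at hTc
    rw [Lam_cons]
    apply lightN_relation hp hq hZ hy hF hT hkb hj x' hw _ hg
    have h1 : b - k = Multiset.card T' := by omega
    rw [h1]
    clear h1 hTc hTn hx'
    induction T' using Multiset.induction_on with
    | empty =>
      rw [Lam, Multiset.map_zero, Multiset.prod_zero, Multiset.card_zero, pow_zero]
      exact Submodule.one_le.1 le_rfl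
    | cons y' T' ih =>
      rw [Lam_cons, Multiset.card_cons, pow_succ']
      refine Submodule.mul_mem_mul (Submodule.add_mem _ (Submodule.subset_span (by simp))
        (Submodule.smul_mem _ _ (Submodule.subset_span (by simp)))) ih
  | zero => rw [mul_zero, map_zero]
  | add u v _ _ hu hv => rw [mul_add, map_add, hu, hv, add_zero]
  | smul c u _ hu => rw [mul_smul_comm, map_smul, hu, smul_zero]

end Vale.Agent.P181.R2.H866
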