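import Vale.Agent.P181.R2.H151.Core
import Vale.Agent.P181.R2.H240.W2
import Vale.Agent.P181.R2.H684.W3
import Vale.Agent.P181.R2.H280.NCurry
import Vale.Agent.P181.R2.H940.NDescent

/-!
Row W4 of the three-row theorem: one step in the number of slots.
-/

set_option autoImplicit false

open MvPolynomial

namespace Vale.Agent.P181.TM

open Vale.Agent.P181 Vale.Agent.P181.H536 Vale.Agent.P181.H280 Vale.Agent.P181.TN

theorem curry_inv2 {n m b k : ℕ} (hk : k ≤ b) (F : Fm n (m + 1)) (hI : Inv2 b F)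
    (hT : Top b k F) {v : Sn n} (hv : v ∈ ZZ n ^ k) {A : Sn n} (hA : A ∈ U2 n ^ (b - k)) :
    Inv2 b (F.curryLeft (v * A)) := by
  have h1 := inv_fix (d := fun i : Fin 0 => i.elim0) hk
    (MultilinearMap.constOfIsEmpty ℂ (fun _ : Fin 0 => Sn n) F)
    (fun z hz w hw B _ P hP => hI z hz w hw P hP)
    (fun j hkj hjb w hw A hA B _ => hT j hkj hjb w hw A hA) hv hA
  intro z hz w hw P hP
  exact h1 z hz w hw (fun i => i.elim0) (fun i => i.elim0) P hP

/-- **Row W4.** -/
theorem LW {k b t s e : ℕ} (hb : 2 ≤ b) (hs : 1 ≤ s) (hke : k ≤ e + 2)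
    (hnum : (b - 2) * (s - 1) + e + 4 < 2 * t) (hKK : ∀ t', t' ≤ t → KK2 1 k b t')
    (F : Fm 1 (k + 1)) (hsy : IsSymm F) (hI : Inv2 b F) (hH : Hom b t F)
    (hK : IsK (linS (1 + 2)) b F) (hQ : QQ s b F) : Van b F := by
  apply descent F
  intro j hjb hT w hw A hA
  rcases lt_or_ge t j with htj | hjt
  · exact curry_zero hjb htj F hH hw hA
  · exact hKK (t - j) (Nat.sub_le _ _) _ (hsy.curryLeft _) (curry_inv2 hjb F hI hT hw hA)
      (curry_hom hjb hjt F hH hw hA)
      (isK_of_psi F hsy hK (fun x hx ζ i j hij =>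
        psi_zero hb hs hke hnum F hsy hI hH hK hQ x hx ζ i j hij) (wA_mem hjb hw hA))

end Vale.Agent.P181.TM
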