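import Vale.Agent.P181.R2.H866.AStep
import Vale.Agent.P181.R2.H556.ThreeDefs

set_option autoImplicit false

open MvPolynomial

namespace Vale.Agent.P181.T3R

open Vale.Agent.P181 Vale.Agent.P181.H536 Vale.Agent.P181.H280 Vale.Agent.P181.R2.H866

/-- The condition `QQ` in terms of the coefficients. -/
lemma QQ_iff_Dev {s b a : ℕ} (F : Fm a) :
    QQ s b F ↔ DZ (X 0) (X 1) (X 2) (linS 3) (b - 1) s F := by
  constructor
  · intro hQ j hj x g hg
    obtain ⟨p, hp, hpe⟩ := hQ x g hg
    by_cases hja : j ≤ a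
    · have h1 : p = ∑ k ∈ Finset.range (a + 1),
          Polynomial.C (Dev (X 2) k (lin (X 0) (X 1) x) F g) * Polynomial.X ^ k := by
        apply Polynomial.funext
        intro c
        rw [hpe, Polynomial.eval_finsetSum]
        have h2 := gen (X 2) (ln x) F g c
        rw [h2]
        apply Finset.sum_congr rfl
        intro k _
        rw [Polynomial.eval_mul, Polynomial.eval_C, Polynomial.eval_pow, Polynomial.eval_X,
          mul_comm]
        rfl
      have h3 := (Polynomial.degree_lt_iff_coeff_zero p s).1 hp j hj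
      rw [h1, Polynomial.finsetSum_coeff] at h3
      simp only [Polynomial.coeff_C_mul, Polynomial.coeff_X_pow] at h3
      rw [Finset.sum_eq_single j] at h3
      · simpa using h3
      · intro k _ hk
        rw [if_neg (Ne.symm hk), mul_zero]
      · intro hjn
        exact absurd (Finset.mem_range.2 (by omega)) hjn
    · exact Dev_of_lt _ (by omega) _ _ _
  · intro hD x g hg
    refine ⟨∑ k ∈ Finset.range (a + 1),
          Polynomial.C (Dev (X 2) k (lin (X 0) (X 1) x) F g) * Polynomial.X ^ k, ?_, ?_⟩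
    · rw [Polynomial.degree_lt_iff_coeff_zero]
      intro j hj
      rw [Polynomial.finsetSum_coeff]
      apply Finset.sum_eq_zero
      intro k _
      rw [Polynomial.coeff_C_mul, Polynomial.coeff_X_pow]
      by_cases hjk : j = k
      · rw [← hjk, hD j hj x g hg, zero_mul]
      · rw [if_neg hjk, mul_zero]
    · intro c
      rw [Polynomial.eval_finsetSum]
      have h2 := gen (X 2) (ln x) F g c
      rw [h2]
      apply Finset.sum_congr rfl
      intro k _
      rw [Polynomial.eval_mul, Polynomial.eval_C, Polynomial.eval_pow, Polynomial.eval_X,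
        mul_comm]
      rfl

/-- **R4d** heavy step. -/
theorem heavy {m b k s : ℕ} (hb : 1 ≤ b) (hs : 1 ≤ s) (hk : k ≤ b) (hks : m + 2 ≤ k + s)
    (F : Fm (m + 1)) (hQ : QQ s b F) {A : S3} (hA : A ∈ U2 ^ (b - k)) :
    QQ (s - 1) b (F.curryLeft (X 2 ^ k * A)) := by
  obtain ⟨b, rfl⟩ : ∃ b', b = b' + 1 := ⟨b - 1, by omega⟩
  obtain ⟨s, rfl⟩ : ∃ s', s = s' + 1 := ⟨s - 1, by omega⟩
  rw [QQ_iff_Dev] at hQ ⊢
  rw [Nat.add_sub_cancel] at hQ ⊢
  exact R2.H866.heavy (X_mem_linS _) (X_mem_linS _) (X_mem_linS _) hQ (by omega) hk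
    (pow_le_pow_left' U2_le _ hA)

/-- **R4e** light step. -/
theorem light {m b k s : ℕ} (hs : 1 ≤ s) (hk : k < b) (hm : m < b - k + s) (F : Fm (m + 1))
    (hQ : QQ s b F) (hT : Top b k F) {A : S3} (hA : A ∈ U2 ^ (b - k)) :
    QQ s b (F.curryLeft (X 2 ^ k * A)) := by
  obtain ⟨b, rfl⟩ : ∃ b', b = b' + 1 := ⟨b - 1, by omega⟩
  rw [QQ_iff_Dev] at hQ ⊢
  rw [Nat.add_sub_cancel] at hQ ⊢
  exact R2.H866.light (X_mem_linS _) (X_mem_linS _) (X_mem_linS _) hQ
    (fun j h g hj hjb hh hg => hT j hj hjb h hh g hg) (by omega) (by omega) hA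

end Vale.Agent.P181.T3R
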