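import Vale.Agent.P181.R2.H866.Tools

set_option autoImplicit false

open Polynomial

namespace Vale.Agent.P181.R2.H866

open Vale.Agent.P181 H536

variable {A : Type*} [CommRing A] [Algebra ℂ A]

/-- All the operators of index at least `s` annihilate the form (level `b + 1`). -/
def DZ (p q z : A) (L : Submodule ℂ A) (b s : ℕ) {a : ℕ} (F : ML A a) : Prop :=
  ∀ j, s ≤ j → ∀ (x : ℂ) (g : Fin a → A), (∀ i, g i ∈ L ^ b) → Dev z j (lin p q x) F g = 0

/-- No exponent of `z` above `k` in the first argument (level `b`). -/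
def TopE (p q z : A) (L : Submodule ℂ A) (b k : ℕ) {a : ℕ} (F : ML A (a + 1)) : Prop :=
  ∀ (j : ℕ) (h : A) (g : Fin a → A), k < j → j ≤ b → h ∈ (Submodule.span ℂ {p, q}) ^ (b - j) →
    (∀ i, g i ∈ L ^ b) → F (Fin.cons (z ^ j * h) g) = 0

lemma zpow_mul_mem {z h : A} {L : Submodule ℂ A} (hz : z ∈ L) {k b : ℕ} (hk : k ≤ b)
    (hh : h ∈ L ^ (b - k)) : z ^ k * h ∈ L ^ b := by
  have h1 : b = k + (b - k) := by omega
  rw [h1, pow_add]
  exact Submodule.mul_mem_mul (Submodule.pow_mem_pow L hz k) hh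

lemma cons_mem {L : Submodule ℂ A} {b a : ℕ} {w : A} (hw : w ∈ L ^ b) {g : Fin a → A}
    (hg : ∀ i, g i ∈ L ^ b) (i : Fin (a + 1)) : (Fin.cons w g : Fin (a + 1) → A) i ∈ L ^ b := by
  refine Fin.cases ?_ (fun i => ?_) i
  · exact hw
  · exact hg i

/-- Heavy step. -/
lemma heavy_aux {p q z : A} {L : Submodule ℂ A} {b s a : ℕ} {F : ML A (a + 1)}
    (hp : p ∈ L) (hq : q ∈ L) (hz : z ∈ L) (hF : DZ p q z L b (s + 1) F) (x : ℂ) (g : Fin a → A)
    (hg : ∀ i, g i ∈ L ^ b) : ∀ (n j k : ℕ) (h : A), a + 1 ≤ j + n → s ≤ j → a + 1 ≤ k + j →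
      k ≤ b + 1 → h ∈ L ^ (b + 1 - k) → Dev z j (lin p q x) (F.curryLeft (z ^ k * h)) g = 0 := by
  intro n
  induction n with
  | zero =>
    intro j k h h1 _ _ _ _
    exact Dev_of_lt z (by omega) _ _ _
  | succ n ih =>
    intro j k h h1 h2 h3 h4 h5
    rcases Nat.eq_zero_or_pos k with rfl | hk
    · exact Dev_of_lt z (by omega) _ _ _
    obtain ⟨k, rfl⟩ : ∃ k', k = k' + 1 := ⟨k - 1, by omega⟩
    have hlin : lin p q x ∈ L := L.add_mem hp (L.smul_mem _ hq)
    have h10 : b + 1 - (k + 1) = b - k := by omega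
    rw [h10] at h5
    have h6 := hF (j + 1) (by omega) x (Fin.cons (z ^ k * h) g)
      (cons_mem (zpow_mul_mem hz (by omega) h5) hg)
    rw [Dev_cons] at h6
    have h7 : z * (z ^ k * h) = z ^ (k + 1) * h := by ring
    have h8 : lin p q x * (z ^ k * h) = z ^ k * (lin p q x * h) := by ring
    rw [h7, h8, ih (j + 1) k (lin p q x * h) (by omega) (by omega) (by omega) (by omega) (by
      have h9 : b + 1 - k = (b - k) + 1 := by omega
      rw [h9, pow_succ']
      exact Submodule.mul_mem_mul hlin h5), add_zero] at h6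
    exact h6

/-- **Heavy step.** -/
theorem heavy {p q z : A} {L : Submodule ℂ A} {b s a : ℕ} {F : ML A (a + 1)}
    (hp : p ∈ L) (hq : q ∈ L) (hz : z ∈ L) (hF : DZ p q z L b (s + 1) F) {k : ℕ}
    (hk : a + 1 ≤ k + s) (hkb : k ≤ b + 1) {h : A} (hh : h ∈ L ^ (b + 1 - k)) :
    DZ p q z L b s (F.curryLeft (z ^ k * h)) := by
  intro j hj x g hg
  exact heavy_aux hp hq hz hF x g hg (a + 1) j k h (by omega) hj (by omega) hkb hh

/-- Light step on products with distinct roots. -/
lemma light_relation {p q z : A} {L : Submodule ℂ A} {b s a k : ℕ} {F : ML A (a + 1)}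
    (hz : z ∈ L) (hF : DZ p q z L b s F) (hT : TopE p q z L (b + 1) k F) (hkb : k ≤ b) {j : ℕ}
    (hj : s ≤ j) (x : ℂ) {h : A} (hh : h ∈ (Submodule.span ℂ {p, q}) ^ (b - k)) {g : Fin a → A}
    (hg : ∀ i, g i ∈ L ^ b) (hp : p ∈ L) (hq : q ∈ L) :
    Dev z j (lin p q x) (F.curryLeft (z ^ k * (lin p q x * h))) g = 0 := by
  have hUL : Submodule.span ℂ {p, q} ≤ L := by
    rw [Submodule.span_le]
    rintro _ (rfl | rfl)
    · exact hp
    · exact hq
  have h6 := hF j hj x (Fin.cons (z ^ k * h) g)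
    (cons_mem (zpow_mul_mem hz hkb (pow_le_pow_left' hUL _ hh)) hg)
  have hlin : lin p q x ∈ L := L.add_mem hp (L.smul_mem _ hq)
  have h7 : z * (z ^ k * h) = z ^ (k + 1) * h := by ring
  have h8 : lin p q x * (z ^ k * h) = z ^ k * (lin p q x * h) := by ring
  rcases Nat.eq_zero_or_pos j with rfl | hj0
  · rw [Dev_cons_zero, h8] at h6
    exact h6
  · obtain ⟨j, rfl⟩ : ∃ j', j = j' + 1 := ⟨j - 1, by omega⟩
    rw [Dev_cons, h7, h8] at h6
    have h9 : Dev z j (lin p q x) (F.curryLeft (z ^ (k + 1) * h)) g = 0 := by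
      rw [Dev]
      apply Finset.sum_eq_zero
      intro I _
      rw [MultilinearMap.curryLeft_apply]
      apply hT (k + 1) h _ (by omega) (by omega) (by
        have : b + 1 - (k + 1) = b - k := by omega
        rwa [this])
      intro i
      rw [pow_succ']
      refine Submodule.mul_mem_mul ?_ (hg i)
      split_ifs
      · exact hz
      · exact hlin
    rw [h9, zero_add] at h6
    exact h6

/-- **Light step.** -/
theorem light {p q z : A} {L : Submodule ℂ A} {b s a k : ℕ} {F : ML A (a + 1)}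
    (hp : p ∈ L) (hq : q ∈ L) (hz : z ∈ L) (hF : DZ p q z L b s F) (hT : TopE p q z L (b + 1) k F)
    (hc : a + k < b + 1 + s) (hkb : k ≤ b) {h : A}
    (hh : h ∈ (Submodule.span ℂ {p, q}) ^ (b + 1 - k)) :
    DZ p q z L b s (F.curryLeft (z ^ k * h)) := by
  intro j hj x g hg
  have hh' := le_span_distinct p q _ hh
  clear hh
  induction hh' using Submodule.span_induction with
  | mem h hh =>
    obtain ⟨T, hTc, hTn, rfl⟩ := hh
    apply Dev_zero_of_roots p q z j _ g T hTn (by omega)
    intro y hy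
    obtain ⟨T', rfl⟩ := Multiset.exists_cons_of_mem hy
    rw [Multiset.card_cons] at hTc
    rw [Lam_cons]
    apply light_relation hz hF hT hkb hj y _ hg hp hq
    have h1 : b - k = Multiset.card T' := by omega
    rw [h1]
    clear h1 hTc hTn hy
    induction T' using Multiset.induction_on with
    | empty =>
      rw [Lam, Multiset.map_zero, Multiset.prod_zero, Multiset.card_zero, pow_zero]
      exact Submodule.one_le.1 le_rfl
    | cons y' T' ih =>
      rw [Lam_cons, Multiset.card_cons, pow_succ']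
      refine Submodule.mul_mem_mul (Submodule.add_mem _ (Submodule.subset_span (by simp))
        (Submodule.smul_mem _ _ (Submodule.subset_span (by simp)))) ih
  | zero =>
    rw [mul_zero, map_zero, Dev]
    apply Finset.sum_eq_zero
    intro I _
    rfl
  | add u v _ _ hu hv =>
    rw [mul_add, map_add, Dev]
    rw [Dev] at hu hv
    simp only [add_apply]
    rw [Finset.sum_add_distrib, hu, hv, add_zero]
  | smul c u _ hu =>
    rw [mul_smul_comm, map_smul, Dev]
    rw [Dev] at hu
    simp only [smul_apply, smul_eq_mul]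
    rw [← Finset.mul_sum, hu, mul_zero]

end Vale.Agent.P181.R2.H866
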