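import Vale.Agent.P181.H536.Form

set_option autoImplicit false

open Polynomial

namespace Vale.Agent.P181.R2.H866

open Vale.Agent.P181 H536

variable {A : Type*} [CommRing A] [Algebra ℂ A]

/-- Multilinear forms in `a` arguments. -/
abbrev ML (A : Type*) [CommRing A] [Algebra ℂ A] (a : ℕ) :=
  MultilinearMap ℂ (fun _ : Fin a => A) ℂ

/-- The value of `D_k(ξ)F` at `g`. -/
noncomputable def Dev (z : A) {a : ℕ} (k : ℕ) (ξ : A) (F : ML A a) (g : Fin a → A) : ℂ :=
  ∑ I ∈ (Finset.univ : Finset (Fin a)).powersetCard k,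
    F (fun i => (if i ∈ I then z else ξ) * g i)

/-- Generating function of the values `Dev`. -/
lemma gen (z : A) {a : ℕ} (ξ : A) (F : ML A a) (g : Fin a → A) (c : ℂ) :
    F (fun i => (ξ + c • z) * g i) = ∑ k ∈ Finset.range (a + 1), c ^ k * Dev z k ξ F g := by
  have h1 : (fun i => (ξ + c • z) * g i) =
      (fun i => c • (z * g i)) + (fun i => ξ * g i) := by
    funext i
    rw [Pi.add_apply, add_mul, smul_mul_assoc, add_comm]
  rw [h1, MultilinearMap.map_add_univ]
  have h2 : ∀ s : Finset (Fin a), F (s.piecewise (fun i => c • (z * g i)) (fun i => ξ * g i)) =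
      c ^ s.card * F (fun i => (if i ∈ s then z else ξ) * g i) := by
    intro s
    have h3 : s.piecewise (fun i => c • (z * g i)) (fun i => ξ * g i) =
        s.piecewise (fun i => c • (fun i => (if i ∈ s then z else ξ) * g i) i)
          (fun i => (if i ∈ s then z else ξ) * g i) := by
      funext i
      by_cases hi : i ∈ s
      · rw [Finset.piecewise_eq_of_mem _ _ _ hi, Finset.piecewise_eq_of_mem _ _ _ hi]
        simp only [if_pos hi]
      · rw [Finset.piecewise_eq_of_notMem _ _ _ hi, Finset.piecewise_eq_of_notMem _ _ _ hi,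
          if_neg hi]
    rw [h3, MultilinearMap.map_piecewise_smul, Finset.prod_const, smul_eq_mul]
  rw [Finset.sum_congr rfl (fun s _ => h2 s)]
  have h4 : ∀ k ∈ Finset.range (a + 1), c ^ k * Dev z k ξ F g =
      ∑ s ∈ (Finset.univ : Finset (Fin a)).powersetCard k,
        c ^ s.card * F (fun i => (if i ∈ s then z else ξ) * g i) := by
    intro k _
    rw [Dev, Finset.mul_sum]
    apply Finset.sum_congr rfl
    intro s hs
    rw [(Finset.mem_powersetCard.1 hs).2]
  rw [Finset.sum_congr rfl h4, ← Finset.powerset_univ, Finset.sum_powerset, Finset.card_univ,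
    Fintype.card_fin]

/-- Expansion at the first argument. -/
lemma Dev_cons (z : A) {a : ℕ} (k : ℕ) (ξ : A) (F : ML A (a + 1)) (g : A) (g' : Fin a → A) :
    Dev z (k + 1) ξ F (Fin.cons g g') =
      Dev z k ξ (F.curryLeft (z * g)) g' + Dev z (k + 1) ξ (F.curryLeft (ξ * g)) g' := by
  classical
  have hz : ∀ s : Finset (Fin a), (0 : Fin (a + 1)) ∉ s.map (Fin.succEmb a) := by
    intro s hs
    obtain ⟨x, _, hx⟩ := Finset.mem_map.1 hs
    exact Fin.succ_ne_zero x hx
  have hE : (Finset.univ : Finset (Fin (a + 1))) =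
      insert 0 ((Finset.univ : Finset (Fin a)).map (Fin.succEmb a)) := by
    ext i
    refine Fin.cases ?_ (fun i => ?_) i <;> simp
  have h1 : ∀ (s : Finset (Fin a)),
      (fun i : Fin (a + 1) => (if i ∈ insert 0 (s.map (Fin.succEmb a)) then z else ξ) *
        (Fin.cons g g' : Fin (a + 1) → A) i) =
      Fin.cons (z * g) (fun i => (if i ∈ s then z else ξ) * g' i) := by
    intro s
    funext i
    refine Fin.cases ?_ (fun i => ?_) i
    · simp
    · simp
  have h2 : ∀ (s : Finset (Fin a)),
      (fun i : Fin (a + 1) => (if i ∈ s.map (Fin.succEmb a) then z else ξ) *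
        (Fin.cons g g' : Fin (a + 1) → A) i) =
      Fin.cons (ξ * g) (fun i => (if i ∈ s then z else ξ) * g' i) := by
    intro s
    funext i
    refine Fin.cases ?_ (fun i => ?_) i
    · simp
    · simp
  rw [Dev, hE, Finset.powersetCard_succ_insert (hz _), Finset.sum_union, Finset.sum_image,
    Finset.powersetCard_map, Finset.powersetCard_map, Finset.sum_map, Finset.sum_map, add_comm]
  · congr 1
    · apply Finset.sum_congr rfl
      intro s _
      change F (fun i : Fin (a + 1) => (if i ∈ insert 0 (s.map (Fin.succEmb a)) then z else ξ) *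
        (Fin.cons g g' : Fin (a + 1) → A) i) = _
      rw [h1]
      rfl
    · apply Finset.sum_congr rfl
      intro s _
      change F (fun i : Fin (a + 1) => (if i ∈ (s.map (Fin.succEmb a)) then z else ξ) *
        (Fin.cons g g' : Fin (a + 1) → A) i) = _
      rw [h2]
      rfl
  · intro s hs t ht hst
    rw [Finset.powersetCard_map] at hs ht
    obtain ⟨s', _, rfl⟩ := Finset.mem_map.1 hs
    obtain ⟨t', _, rfl⟩ := Finset.mem_map.1 ht
    have h3 : (insert 0 (s'.map (Fin.succEmb a))).erase 0 =
        (insert 0 (t'.map (Fin.succEmb a))).erase 0 := congrArg (fun u => u.erase 0) hst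
    rw [Finset.erase_insert (hz s'), Finset.erase_insert (hz t')] at h3
    exact h3
  · rw [Finset.disjoint_left]
    intro s hs ht
    obtain ⟨t', ht', rfl⟩ := Finset.mem_image.1 ht
    rw [Finset.powersetCard_map] at hs
    obtain ⟨s', _, hs'⟩ := Finset.mem_map.1 hs
    apply hz s'
    have h4 : s'.map (Fin.succEmb a) = insert 0 t' := hs'
    rw [h4]
    exact Finset.mem_insert_self _ _

lemma Dev_cons_zero (z : A) {a : ℕ} (ξ : A) (F : ML A (a + 1)) (g : A) (g' : Fin a → A) :
    Dev z 0 ξ F (Fin.cons g g') = Dev z 0 ξ (F.curryLeft (ξ * g)) g' := by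
  rw [Dev, Dev, Finset.powersetCard_zero, Finset.powersetCard_zero, Finset.sum_singleton,
    Finset.sum_singleton]
  rw [MultilinearMap.curryLeft_apply]
  congr 1
  funext i
  refine Fin.cases ?_ (fun i => ?_) i
  · simp
  · simp

lemma Dev_of_lt (z : A) {a : ℕ} {k : ℕ} (h : a < k) (ξ : A) (F : ML A a) (g : Fin a → A) :
    Dev z k ξ F g = 0 := by
  rw [Dev, Finset.powersetCard_eq_empty.2, Finset.sum_empty]
  rwa [Finset.card_univ, Fintype.card_fin]

end Vale.Agent.P181.R2.H866
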