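import Vale.Agent.P181.R2.H866.Basic

set_option autoImplicit false

open Polynomial

namespace Vale.Agent.P181.R2.H866

open Vale.Agent.P181 H536

variable {A : Type*} [CommRing A] [Algebra ℂ A]

/-- Products of linear forms of the pencil with distinct parameters span. -/
lemma le_span_distinct (p q : A) (n : ℕ) :
    (Submodule.span ℂ {p, q}) ^ n ≤
      Submodule.span ℂ {h : A | ∃ T : Multiset ℂ, T.card = n ∧ T.Nodup ∧ h = Lam p q T} := by
  induction n with
  | zero =>
    rw [pow_zero, Submodule.one_le]
    apply Submodule.subset_span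
    exact ⟨0, rfl, Multiset.nodup_zero, by simp [Lam]⟩
  | succ n ih =>
    rw [pow_succ, Submodule.mul_le]
    intro m hm l hl
    obtain ⟨α, β, rfl⟩ := Submodule.mem_span_pair.1 hl
    have hm' := ih hm
    clear hm
    induction hm' using Submodule.span_induction with
    | mem x hx =>
      obtain ⟨T, hT, hTn, rfl⟩ := hx
      classical
      obtain ⟨y, hy⟩ := Infinite.exists_notMem_finset T.toFinset
      obtain ⟨y', hy'⟩ := Infinite.exists_notMem_finset (insert y T.toFinset)
      rw [Finset.mem_insert, not_or] at hy'
      rw [Multiset.mem_toFinset] at hy hy'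
      have hne : y' - y ≠ 0 := sub_ne_zero.2 hy'.1
      have hkey : Lam p q T * (α • p + β • q) =
          (α - (β - α * y) / (y' - y)) • Lam p q (y ::ₘ T) +
            ((β - α * y) / (y' - y)) • Lam p q (y' ::ₘ T) := by
        set d := (β - α * y) / (y' - y) with hd
        have hd' : d * (y' - y) = β - α * y := by
          rw [hd]; field_simp
        have hβ : β = (α - d) * y + d * y' := by linear_combination -hd'
        rw [Lam_cons, Lam_cons, lin, lin]
        rw [hβ]
        simp only [Algebra.smul_def, map_add, map_mul, map_sub]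
        ring
      rw [hkey]
      apply Submodule.add_mem
      · apply Submodule.smul_mem
        apply Submodule.subset_span
        exact ⟨y ::ₘ T, by rw [Multiset.card_cons, hT], Multiset.nodup_cons.2 ⟨hy, hTn⟩, rfl⟩
      · apply Submodule.smul_mem
        apply Submodule.subset_span
        exact ⟨y' ::ₘ T, by rw [Multiset.card_cons, hT], Multiset.nodup_cons.2 ⟨hy'.2, hTn⟩, rfl⟩
    | zero => rw [zero_mul]; exact Submodule.zero_mem _
    | add x y hx1 hy1 hx hy =>
      rw [add_mul]
      exact Submodule.add_mem _ hx hy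
    | smul c x hx1 hx =>
      rw [smul_mul_assoc]
      exact Submodule.smul_mem _ _ hx

/-- A multilinear form along a line of arguments. -/
lemma poly_line {a : ℕ} (G : ML A a) (m m' : Fin a → A) (J : Finset (Fin a))
    (hJ : ∀ i, i ∉ J → m' i = 0) :
    ∃ P : ℂ[X], P.natDegree ≤ J.card ∧ ∀ x : ℂ, P.eval x = G (fun i => m i + x • m' i) := by
  classical
  refine ⟨∑ S : Finset (Fin a), C (G (S.piecewise m' m)) * X ^ S.card, ?_, fun x => ?_⟩
  · apply natDegree_sum_le_of_forall_le
    intro S _
    by_cases hS : S.card ≤ J.card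
    · exact (natDegree_C_mul_X_pow_le _ _).trans hS
    · have h1 : ∃ i ∈ S, m' i = 0 := by
        by_contra hcon
        push Not at hcon
        apply hS
        refine Finset.card_le_card ?_
        intro i hi
        by_contra hiJ
        exact hcon i hi (hJ i hiJ)
      obtain ⟨i, hi, hi0⟩ := h1
      have h2 : G (S.piecewise m' m) = 0 := by
        apply G.map_coord_zero i
        rw [Finset.piecewise_eq_of_mem _ _ _ hi, hi0]
      rw [h2, C_0, zero_mul, natDegree_zero]
      exact Nat.zero_le _
  · rw [eval_finsetSum]
    have h1 : (fun i => m i + x • m' i) = (fun i => x • m' i) + m := by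
      funext i
      rw [Pi.add_apply, add_comm]
    rw [h1, MultilinearMap.map_add_univ]
    apply Finset.sum_congr rfl
    intro S _
    have h3 : S.piecewise (fun i => x • m' i) m =
        S.piecewise (fun i => x • (S.piecewise m' m) i) (S.piecewise m' m) := by
      funext i
      by_cases hi : i ∈ S
      · simp [hi]
      · simp [hi]
    rw [h3, MultilinearMap.map_piecewise_smul, Finset.prod_const, smul_eq_mul, eval_mul, eval_C,
      eval_pow, eval_X, mul_comm]

/-- `D_s(p + x q)` is a polynomial in `x` of degree at most `a - s`. -/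
lemma Dev_poly (p q z : A) {a : ℕ} (s : ℕ) (G : ML A a) (g : Fin a → A) :
    ∃ P : ℂ[X], P.natDegree ≤ a - s ∧ ∀ x : ℂ, P.eval x = Dev z s (lin p q x) G g := by
  classical
  have h1 : ∀ I ∈ (Finset.univ : Finset (Fin a)).powersetCard s, ∃ P : ℂ[X],
      P.natDegree ≤ a - s ∧
      ∀ x : ℂ, P.eval x = G (fun i => (if i ∈ I then z else lin p q x) * g i) := by
    intro I hI
    obtain ⟨P, hP, hPe⟩ := poly_line G (fun i => (if i ∈ I then z else p) * g i)
      (fun i => (if i ∈ I then 0 else q) * g i) (Finset.univ \ I) (by
        intro i hi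
        rw [Finset.mem_sdiff, not_and, not_not] at hi
        rw [if_pos (hi (Finset.mem_univ _)), zero_mul])
    rw [Finset.card_sdiff_of_subset (Finset.subset_univ _), Finset.card_univ, Fintype.card_fin,
      (Finset.mem_powersetCard.1 hI).2] at hP
    refine ⟨P, hP, fun x => ?_⟩
    rw [hPe]
    congr 1
    funext i
    by_cases hi : i ∈ I
    · rw [if_pos hi, if_pos hi, if_pos hi, zero_mul, smul_zero, add_zero]
    · rw [if_neg hi, if_neg hi, if_neg hi, lin, add_mul, smul_mul_assoc]
  choose! P hP hPe using h1
  refine ⟨∑ I ∈ (Finset.univ : Finset (Fin a)).powersetCard s, P I,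
    natDegree_sum_le_of_forall_le _ _ hP, fun x => ?_⟩
  rw [eval_finsetSum, Dev]
  exact Finset.sum_congr rfl (fun I hI => hPe I hI x)

/-- A polynomial with too many roots vanishes. -/
lemma Dev_zero_of_roots (p q z : A) {a : ℕ} (s : ℕ) (G : ML A a) (g : Fin a → A)
    (T : Multiset ℂ) (hT : T.Nodup) (hc : a - s < T.card)
    (h : ∀ x ∈ T, Dev z s (lin p q x) G g = 0) (x : ℂ) : Dev z s (lin p q x) G g = 0 := by
  classical
  obtain ⟨P, hP, hPe⟩ := Dev_poly p q z s G g
  have h0 : P = 0 := by
    by_contra hne
    have h1 : T.toFinset.card ≤ P.natDegree := by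
      refine (Finset.card_le_card (t := P.roots.toFinset) ?_).trans
        ((Multiset.toFinset_card_le _).trans (card_roots' P))
      intro y hy
      rw [Multiset.mem_toFinset] at hy ⊢
      rw [mem_roots hne, IsRoot, hPe]
      exact h y hy
    rw [Multiset.toFinset_card_of_nodup hT] at h1
    omega
  rw [← hPe, h0, eval_zero]

end Vale.Agent.P181.R2.H866
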