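import Vale.Agent.P181.R2.H24.Defs

/-!
Row T: transfer of the solutions of the (integer linear) conditions from `ℂ` to `ZMod p`.
-/

set_option autoImplicit false

namespace Vale.Agent.P181.ModP

variable {a b n : ℕ} {lam : Fin n → ℕ}

lemma Sol.map {R S : Type*} [CommRing R] [CommRing S] {c : Lab a b n → R} (h : Sol lam c)
    (f : R →+ S) : Sol lam (fun w => f (c w)) where
  pos w π := by rw [h.pos w π]
  row w σ := by rw [h.row w σ]
  wt w hw := by rw [h.wt w hw, map_zero]
  shear i l hil w s hs := by rw [← map_sum, h.shear i l hil w s hs, map_zero]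
  ker v := by rw [← map_sum, h.ker v, map_zero]

lemma Sol.of_map {R S : Type*} [CommRing R] [CommRing S] {c : Lab a b n → R} (f : R →+ S)
    (hf : Function.Injective f) (h : Sol lam (fun w => f (c w))) : Sol lam c where
  pos w π := hf (h.pos w π)
  row w σ := hf (h.row w σ)
  wt w hw := hf (by rw [h.wt w hw, map_zero])
  shear i l hil w s hs := hf (by rw [map_sum, h.shear i l hil w s hs, map_zero])
  ker v := hf (by rw [map_sum, h.ker v, map_zero])

/-- **Row T.** -/
theorem transfer {a b n : ℕ} {lam : Fin n → ℕ} (p : ℕ) [Fact p.Prime] (c : Lab a b n → ℂ)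
    (hc : Sol lam c) (h0 : c ≠ 0) : ∃ c' : Lab a b n → ZMod p, Sol lam c' ∧ c' ≠ 0 := by
  classical
  -- from `ℂ` to `ℚ`
  obtain ⟨w₀, hw₀⟩ : ∃ w, c w ≠ 0 := by
    by_contra h
    push Not at h
    exact h0 (funext h)
  obtain ⟨f, hf⟩ : ∃ f : Module.Dual ℚ ℂ, f (c w₀) ≠ 0 := by
    by_contra h
    push Not at h
    exact hw₀ ((Module.forall_dual_apply_eq_zero_iff ℚ (c w₀)).1 h)
  have h1 : Sol lam (fun w => f (c w)) := hc.map f.toAddMonoidHom
  -- clear denominators
  obtain ⟨D, hD⟩ := IsLocalization.exist_integer_multiples_of_finite (nonZeroDivisors ℤ)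
    (fun w => f (c w))
  choose c₂ hc₂ using hD
  have hc₂' : ∀ w, (Int.castAddHom ℚ) (c₂ w) =
      (AddMonoidHom.mulLeft (((D : ℤ) : ℚ))) (f (c w)) := by
    intro w
    have h2 := hc₂ w
    simp only [algebraMap_int_eq, eq_intCast] at h2
    rw [AddMonoidHom.coe_mulLeft, ← zsmul_eq_mul]
    exact h2
  have h2 : Sol lam c₂ := by
    apply Sol.of_map (Int.castAddHom ℚ) Int.cast_injective
    simp only [hc₂']
    exact h1.map _
  have hD0 : ((D : ℤ) : ℚ) ≠ 0 := Int.cast_ne_zero.2 (nonZeroDivisors.coe_ne_zero D)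
  have hc₂0 : c₂ w₀ ≠ 0 := by
    intro h3
    have h4 := hc₂' w₀
    rw [h3, map_zero, AddMonoidHom.coe_mulLeft] at h4
    exact (mul_ne_zero hD0 hf) h4.symm
  -- divide by the greatest common divisor
  obtain ⟨c₃, hc₃, hg⟩ := Finset.extract_gcd (s := (Finset.univ : Finset (Lab a b n))) c₂
    ⟨w₀, Finset.mem_univ _⟩
  set g := (Finset.univ : Finset (Lab a b n)).gcd c₂ with hgdef
  have hg0 : g ≠ 0 := by
    intro h3
    rw [hgdef, Finset.gcd_eq_zero_iff] at h3
    exact hc₂0 (h3 w₀ (Finset.mem_univ _))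
  have h3 : Sol lam c₃ := by
    apply Sol.of_map (AddMonoidHom.mulLeft g) (mul_right_injective₀ hg0)
    simp only [AddMonoidHom.coe_mulLeft]
    have h4 : (fun w => g * c₃ w) = c₂ := funext fun w => (hc₃ w (Finset.mem_univ _)).symm
    rw [h4]
    exact h2
  refine ⟨fun w => Int.castAddHom (ZMod p) (c₃ w), h3.map _, fun h4 => ?_⟩
  have h5 : ∀ w ∈ (Finset.univ : Finset (Lab a b n)), (p : ℤ) ∣ c₃ w := by
    intro w _
    have h6 := congrFun h4 w
    exact (ZMod.intCast_zmod_eq_zero_iff_dvd (c₃ w) p).1 h6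
  have h6 := Finset.dvd_gcd h5
  rw [hg] at h6
  have h7 := Int.natCast_dvd_natCast.1 (by simpa using h6 : (p : ℤ) ∣ ((1 : ℕ) : ℤ))
  exact (Fact.out : p.Prime).one_lt.ne' (Nat.dvd_one.1 h7)

end Vale.Agent.P181.ModP
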