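import Vale.Agent.P181.R2.H866.W7C

/-!
P181, all partitions with few rows, row W7: the family.
-/

set_option autoImplicit false

namespace Vale.Agent.P181.FR

open Vale.Agent.P181 Vale.Agent.P181.H280 Vale.Agent.P181.FR.H866 Polynomial

/-- **Row W7.** -/
theorem family {m i : ℕ} (hi : 3 ≤ i) (him : i ≤ m) : ∃ (N : ℕ) (P : Fin (2 * i - 1) → Fin m → ℂ),
    ∀ c h : ℕ, N * (h + 1) ≤ c →
    ∃ G : Fin h → Fin h → ((Fin (2 * i - 1 + 1) → Fin m → ℂ) → ℂ),
      (∀ r k, G r k ∈ MP (2 * i - 1 + 1) m (2 * c)) ∧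
      (∀ r k (σ : Equiv.Perm (Fin (2 * i - 1 + 1))) p, G r k (fun j => p (σ j)) = G r k p) ∧
      (∀ r k, HWF (2 * i - 1 + 1) m ((4 * c) • om m i) (G r k)) ∧
      (∀ r k p (u v : Fin (2 * i - 1 + 1)), u ≠ v → p u = p v → G r k p = 0) ∧
      LinearIndependent ℂ (fun rk : Fin h × Fin h => fun q : Fin m → ℂ =>
        G rk.1 rk.2 (Fin.snoc (α := fun _ => Fin m → ℂ) P q)) := by
  classical
  set N := Fintype.card (Tau i) with hN
  refine ⟨2 * N, PP i m, fun c h hc => ?_⟩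
  have hNpos : 1 ≤ N := (n1_pos hi).trans n1_le
  -- the exponent
  have hα : ∀ r k : Fin h, ∃ α, α + (N - 1) * (r : ℕ) + N * (1 + (k : ℕ)) = c := by
    intro r k
    refine ⟨c - ((N - 1) * r + N * (1 + k)), ?_⟩
    have h1 : (N - 1) * (r : ℕ) ≤ N * h := Nat.mul_le_mul (Nat.sub_le _ _) r.2.le
    have h2 : N * (1 + (k : ℕ)) ≤ N * h := Nat.mul_le_mul_left _ (by have := k.2; omega)
    have h3 : 2 * N * (h + 1) = N * h + N * h + 2 * N := by ring
    omega
  choose α hα using hα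
  refine ⟨fun r k => GG him (α r k) r k, fun r k => GG_mem him (hα r k),
    fun r k σ p => GG_perm him _ _ _ σ p, fun r k => GG_HWF him (hα r k),
    fun r k p u v huv hp => GG_diag (by omega) him _ _ _ p u v huv hp, ?_⟩
  set L := 2 * N * h + 2 with hL
  have hL2 : 2 ≤ L := by omega
  rw [linearIndependent_iff']
  intro S g hg
  have hQ : ∑ rk ∈ S, C (g rk) * (gg i L (α rk.1 rk.2) rk.1 rk.2).map (algebraMap ℝ ℂ) = 0 := by
    apply Polynomial.funext
    intro t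
    have h1 := congrFun hg (qq i m L t)
    rw [Finset.sum_apply, Pi.zero_apply] at h1
    rw [eval_zero, eval_finsetSum, ← h1]
    refine Finset.sum_congr rfl fun rk _ => ?_
    rw [eval_mul, eval_C, Pi.smul_apply, smul_eq_mul, eval_map]
    congr 1
    exact (GG_eval him L t _ _ _).symm
  have hne : ∀ rk : Fin h × Fin h,
      (gg i L (α rk.1 rk.2) rk.1 rk.2).map (algebraMap ℝ ℂ) ≠ 0 := by
    intro rk h1
    exact (gg_IP hL2 hi _ _ _).ne_zero
      ((Polynomial.map_eq_zero_iff (algebraMap ℝ ℂ).injective).1 h1)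
  have hdeg : ∀ rk : Fin h × Fin h, g rk ≠ 0 →
      (C (g rk) * (gg i L (α rk.1 rk.2) rk.1 rk.2).map (algebraMap ℝ ℂ)).degree =
      ((α rk.1 rk.2 * (2 * L) + (rk.1 : ℕ) * (2 * EE i L) + (1 + (rk.2 : ℕ)) * (2 * EE i L) :
        ℕ) : WithBot ℕ) := by
    intro rk h1
    rw [degree_C_mul h1, degree_map, degree_eq_natDegree (gg_IP hL2 hi _ _ _).ne_zero,
      (gg_IP hL2 hi _ _ _).natDegree]
  have hsup := Polynomial.degree_sum_eq_of_disjoint
    (fun rk : Fin h × Fin h => C (g rk) * (gg i L (α rk.1 rk.2) rk.1 rk.2).map (algebraMap ℝ ℂ))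
    S (by
      rintro x ⟨_, hx⟩ y ⟨_, hy⟩ hxy
      have hx' : g x ≠ 0 := fun h1 => hx (by rw [h1, C_0, zero_mul])
      have hy' : g y ≠ 0 := fun h1 => hy (by rw [h1, C_0, zero_mul])
      intro h1
      simp only [Function.comp_apply] at h1
      rw [hdeg x hx', hdeg y hy'] at h1
      have h2 := WithBot.coe_inj.1 h1
      obtain ⟨e1, e2⟩ := degrees hL (n1_pos hi) n1_le (EE_eq hL2) x.1.2 x.2.2 y.1.2 y.2.2
        (hα x.1 x.2) (hα y.1 y.2) h2
      exact hxy (Prod.ext (Fin.ext e1) (Fin.ext e2)))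
  rw [hQ, degree_zero] at hsup
  intro rk hrk
  by_contra h1
  have h2 : (C (g rk) * (gg i L (α rk.1 rk.2) rk.1 rk.2).map (algebraMap ℝ ℂ)).degree ≤ ⊥ := by
    rw [hsup]
    exact Finset.le_sup (f := fun rk : Fin h × Fin h =>
      (C (g rk) * (gg i L (α rk.1 rk.2) rk.1 rk.2).map (algebraMap ℝ ℂ)).degree) hrk
  rw [le_bot_iff, degree_eq_bot] at h2
  rcases mul_eq_zero.1 h2 with h3 | h3
  · exact h1 (C_eq_zero.1 h3)
  · exact hne rk h3

end Vale.Agent.P181.FR
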