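import Vale.Agent.P181.R2.H959.WDefs
import Vale.Agent.P181.R2.H9.FR3
import Vale.Agent.P181.R2.H350.R4
import Mathlib.GroupTheory.GroupAction.MultipleTransitivity

/-!
P181, all partitions with few rows, row W7 (algebraic part): symmetric highest weight functions of
`2 i` points, from the products of two complementary minors.
-/

set_option autoImplicit false

namespace Vale.Agent.P181.FR.H866

open Vale.Agent.P181 Vale.Agent.P181.H280 Vale.Agent.P181.FR MvPolynomial

section General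

variable {B m : ℕ}

lemma MP_one : (1 : (Fin B → Fin m → ℂ) → ℂ) ∈ MP B m 0 := H350.MP_one

lemma MP_pow {a : ℕ} {G : (Fin B → Fin m → ℂ) → ℂ} (hG : G ∈ MP B m a) (k : ℕ) :
    G ^ k ∈ MP B m (k * a) := H350.MP_pow MP_mul hG k

lemma MP_prod {ι : Type*} [DecidableEq ι] {a : ℕ} {G : ι → (Fin B → Fin m → ℂ) → ℂ}
    (hG : ∀ x, G x ∈ MP B m a) (S : Finset ι) : ∏ x ∈ S, G x ∈ MP B m (S.card * a) := by
  induction S using Finset.induction_on with
  | empty => simpa using MP_one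
  | insert x S hx ih =>
    rw [Finset.prod_insert hx, Finset.card_insert_of_notMem hx]
    have h := MP_mul (hG x) ih
    have h2 : a + S.card * a = (S.card + 1) * a := by ring
    rwa [h2] at h

lemma HWF_one : HWF B m 0 (1 : (Fin B → Fin m → ℂ) → ℂ) := by
  intro g _ p
  simp

lemma HWF_mul {l l' : Fin m → ℕ} {G G' : (Fin B → Fin m → ℂ) → ℂ} (h : HWF B m l G)
    (h' : HWF B m l' G') : HWF B m (l + l') (G * G') := by
  intro g hg p
  rw [Pi.mul_apply, Pi.mul_apply, h g hg, h' g hg]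
  have h1 : ∏ i, g i i ^ (l + l') i = (∏ i, g i i ^ l i) * ∏ i, g i i ^ l' i := by
    rw [← Finset.prod_mul_distrib]
    exact Finset.prod_congr rfl fun i _ => pow_add _ _ _
  rw [h1]
  ring

lemma HWF_pow {l : Fin m → ℕ} {G : (Fin B → Fin m → ℂ) → ℂ} (h : HWF B m l G) (k : ℕ) :
    HWF B m (k • l) (G ^ k) := by
  induction k with
  | zero => simpa using HWF_one
  | succ k ih =>
    rw [pow_succ, succ_nsmul]
    exact HWF_mul ih h

lemma HWF_prod {ι : Type*} [DecidableEq ι] {l : Fin m → ℕ} {G : ι → (Fin B → Fin m → ℂ) → ℂ}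
    (hG : ∀ x, HWF B m l (G x)) (S : Finset ι) : HWF B m (S.card • l) (∏ x ∈ S, G x) := by
  induction S using Finset.induction_on with
  | empty => simpa using HWF_one
  | insert x S hx ih =>
    rw [Finset.prod_insert hx, Finset.card_insert_of_notMem hx, add_comm, add_nsmul, one_nsmul]
    exact HWF_mul (hG x) ih

lemma HWF_sum {ι : Type*} {l : Fin m → ℕ} {G : ι → (Fin B → Fin m → ℂ) → ℂ} (S : Finset ι)
    (hG : ∀ x ∈ S, HWF B m l (G x)) : HWF B m l (∑ x ∈ S, G x) := by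
  intro g hg p
  rw [Finset.sum_apply, Finset.sum_apply, Finset.mul_sum]
  exact Finset.sum_congr rfl fun x hx => hG x hx g hg p

end General

/-- The index type: splittings of the points into two ordered halves. -/
abbrev Tau (i : ℕ) : Type := (Fin i ⊕ Fin i) ≃ Fin (2 * i - 1 + 1)

variable {i m : ℕ}

/-- The product of the two complementary minors. -/
noncomputable def DD (him : i ≤ m) (τ : Tau i) : (Fin (2 * i - 1 + 1) → Fin m → ℂ) → ℂ :=
  fun p => H350.dt i m him (fun a => p (τ (Sum.inl a))) *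
    H350.dt i m him (fun a => p (τ (Sum.inr a)))

lemma dt_expand (him : i ≤ m) (p : Fin i → Fin m → ℂ) : H350.dt i m him p =
    ∑ σ : Equiv.Perm (Fin i), ((Equiv.Perm.sign σ : ℤ) : ℂ) *
      ∏ a, p a (Fin.castLE him (σ a)) := by
  rw [H350.dt, ← Matrix.det_transpose, Matrix.det_apply']
  rfl

lemma DD_mem (him : i ≤ m) (τ : Tau i) : DD him τ ∈ MP (2 * i - 1 + 1) m 1 := by
  have h : DD him τ = ∑ σ : Equiv.Perm (Fin i), ∑ σ' : Equiv.Perm (Fin i),
      (((Equiv.Perm.sign σ : ℤ) : ℂ) * ((Equiv.Perm.sign σ' : ℤ) : ℂ)) •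
        (fun p : Fin (2 * i - 1 + 1) → Fin m → ℂ => ∏ j, p j
          (Sum.elim (fun a => Fin.castLE him (σ a)) (fun a => Fin.castLE him (σ' a))
            (τ.symm j))) := by
    funext p
    rw [DD, dt_expand, dt_expand, Finset.sum_mul_sum, Finset.sum_apply]
    refine Finset.sum_congr rfl fun σ _ => ?_
    rw [Finset.sum_apply]
    refine Finset.sum_congr rfl fun σ' _ => ?_
    rw [Pi.smul_apply, smul_eq_mul]
    have h1 : ∏ j, p j (Sum.elim (fun a => Fin.castLE him (σ a))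
        (fun a => Fin.castLE him (σ' a)) (τ.symm j)) =
        (∏ a, p (τ (Sum.inl a)) (Fin.castLE him (σ a))) *
          ∏ a, p (τ (Sum.inr a)) (Fin.castLE him (σ' a)) := by
      rw [← Equiv.prod_comp τ, Fintype.prod_sum_type]
      simp only [Equiv.symm_apply_apply, Sum.elim_inl, Sum.elim_inr]
    rw [h1]
    ring
  rw [h]
  refine Submodule.sum_mem _ fun σ _ => Submodule.sum_mem _ fun σ' _ => Submodule.smul_mem _ _ ?_
  exact MP_coord _

lemma DD_HWF (him : i ≤ m) (τ : Tau i) : HWF (2 * i - 1 + 1) m (2 • om m i) (DD him τ) := by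
  intro g hg p
  rw [DD, DD, H350.prod_om him (fun k => g k k) 2]
  have h1 := H350.dt_borel him hg (fun a => p (τ (Sum.inl a)))
  have h2 := H350.dt_borel him hg (fun a => p (τ (Sum.inr a)))
  rw [h1, h2]
  ring

/-- The square of the product of the two complementary minors. -/
noncomputable def YT (him : i ≤ m) (τ : Tau i) : (Fin (2 * i - 1 + 1) → Fin m → ℂ) → ℂ :=
  DD him τ ^ 2

lemma YT_mem (him : i ≤ m) (τ : Tau i) : YT him τ ∈ MP (2 * i - 1 + 1) m 2 :=
  MP_pow (DD_mem him τ) 2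

lemma YT_HWF (him : i ≤ m) (τ : Tau i) : HWF (2 * i - 1 + 1) m (4 • om m i) (YT him τ) := by
  have h := HWF_pow (DD_HWF him τ) 2
  rwa [smul_smul] at h

lemma YT_perm (him : i ≤ m) (τ : Tau i) (σ : Equiv.Perm (Fin (2 * i - 1 + 1)))
    (p : Fin (2 * i - 1 + 1) → Fin m → ℂ) :
    YT him τ (fun j => p (σ j)) = YT him (τ.trans σ) p := rfl

/-- Relabelling of the splittings. -/
def rel (σ : Equiv.Perm (Fin (2 * i - 1 + 1))) : Tau i ≃ Tau i where
  toFun τ := τ.trans σ
  invFun τ := τ.trans σ.symm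
  left_inv τ := by ext x; simp
  right_inv τ := by ext x; simp

/-- The sum. -/
noncomputable def F1 (him : i ≤ m) : (Fin (2 * i - 1 + 1) → Fin m → ℂ) → ℂ := ∑ τ, YT him τ

/-- The sum of the products of all but one. -/
noncomputable def F2 (him : i ≤ m) : (Fin (2 * i - 1 + 1) → Fin m → ℂ) → ℂ :=
  ∑ τ, ∏ τ' ∈ Finset.univ.erase τ, YT him τ'

/-- The product. -/
noncomputable def F3 (him : i ≤ m) : (Fin (2 * i - 1 + 1) → Fin m → ℂ) → ℂ := ∏ τ, YT him τ

/-- The family. -/
noncomputable def GG (him : i ≤ m) (α β γ : ℕ) : (Fin (2 * i - 1 + 1) → Fin m → ℂ) → ℂ :=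
  F1 him ^ α * F2 him ^ β * F3 him ^ (1 + γ)

lemma F1_perm (him : i ≤ m) (σ : Equiv.Perm (Fin (2 * i - 1 + 1)))
    (p : Fin (2 * i - 1 + 1) → Fin m → ℂ) : F1 him (fun j => p (σ j)) = F1 him p := by
  rw [F1, Finset.sum_apply, Finset.sum_apply]
  exact Equiv.sum_comp (rel σ) (fun τ => YT him τ p)

lemma F3_perm (him : i ≤ m) (σ : Equiv.Perm (Fin (2 * i - 1 + 1)))
    (p : Fin (2 * i - 1 + 1) → Fin m → ℂ) : F3 him (fun j => p (σ j)) = F3 him p := by
  rw [F3, Finset.prod_apply, Finset.prod_apply]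
  exact Equiv.prod_comp (rel σ) (fun τ => YT him τ p)

lemma F2_perm (him : i ≤ m) (σ : Equiv.Perm (Fin (2 * i - 1 + 1)))
    (p : Fin (2 * i - 1 + 1) → Fin m → ℂ) : F2 him (fun j => p (σ j)) = F2 him p := by
  rw [F2, Finset.sum_apply, Finset.sum_apply]
  rw [← Equiv.sum_comp (rel σ) (fun τ => (∏ τ' ∈ Finset.univ.erase τ, YT him τ') p)]
  refine Finset.sum_congr rfl fun τ _ => ?_
  rw [Finset.prod_apply, Finset.prod_apply]
  refine Finset.prod_bij' (fun τ' _ => rel σ τ') (fun τ' _ => (rel σ).symm τ') ?_ ?_ ?_ ?_ ?_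
  · intro τ' h
    rw [Finset.mem_erase] at h ⊢
    exact ⟨fun h' => h.1 ((rel σ).injective h'), Finset.mem_univ _⟩
  · intro τ' h
    rw [Finset.mem_erase] at h ⊢
    refine ⟨fun h' => h.1 ?_, Finset.mem_univ _⟩
    rw [← h', Equiv.apply_symm_apply]
  · intro τ' _
    exact Equiv.symm_apply_apply _ _
  · intro τ' _
    exact Equiv.apply_symm_apply _ _
  · intro τ' _
    rfl

lemma GG_perm (him : i ≤ m) (α β γ : ℕ) (σ : Equiv.Perm (Fin (2 * i - 1 + 1)))
    (p : Fin (2 * i - 1 + 1) → Fin m → ℂ) :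
    GG him α β γ (fun j => p (σ j)) = GG him α β γ p := by
  simp only [GG, Pi.mul_apply, Pi.pow_apply, F1_perm, F2_perm, F3_perm]

lemma GG_mem (him : i ≤ m) {α β γ c : ℕ} (h : α + (Fintype.card (Tau i) - 1) * β +
    Fintype.card (Tau i) * (1 + γ) = c) : GG him α β γ ∈ MP (2 * i - 1 + 1) m (2 * c) := by
  have h1 : F1 him ∈ MP (2 * i - 1 + 1) m 2 := Submodule.sum_mem _ fun τ _ => YT_mem him τ
  have h2 : F2 him ∈ MP (2 * i - 1 + 1) m ((Fintype.card (Tau i) - 1) * 2) := by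
    refine Submodule.sum_mem _ fun τ _ => ?_
    have h3 := MP_prod (YT_mem him) (Finset.univ.erase τ)
    rwa [Finset.card_erase_of_mem (Finset.mem_univ _), Finset.card_univ] at h3
  have h3 : F3 him ∈ MP (2 * i - 1 + 1) m (Fintype.card (Tau i) * 2) := by
    have h3 := MP_prod (YT_mem him) Finset.univ
    rwa [Finset.card_univ] at h3
  have h4 := MP_mul (MP_mul (MP_pow h1 α) (MP_pow h2 β)) (MP_pow h3 (1 + γ))
  have h5 : α * 2 + β * ((Fintype.card (Tau i) - 1) * 2) +
      (1 + γ) * (Fintype.card (Tau i) * 2) = 2 * c := by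
    rw [← h]; ring
  rw [h5] at h4
  exact h4

lemma GG_HWF (him : i ≤ m) {α β γ c : ℕ} (h : α + (Fintype.card (Tau i) - 1) * β +
    Fintype.card (Tau i) * (1 + γ) = c) :
    HWF (2 * i - 1 + 1) m ((4 * c) • om m i) (GG him α β γ) := by
  have h1 : HWF (2 * i - 1 + 1) m (4 • om m i) (F1 him) :=
    HWF_sum _ fun τ _ => YT_HWF him τ
  have h2 : HWF (2 * i - 1 + 1) m ((Fintype.card (Tau i) - 1) • (4 • om m i)) (F2 him) := by
    refine HWF_sum _ fun τ _ => ?_
    have h3 := HWF_prod (YT_HWF him) (Finset.univ.erase τ)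
    rwa [Finset.card_erase_of_mem (Finset.mem_univ _), Finset.card_univ] at h3
  have h3 : HWF (2 * i - 1 + 1) m (Fintype.card (Tau i) • (4 • om m i)) (F3 him) := by
    have h3 := HWF_prod (YT_HWF him) Finset.univ
    rwa [Finset.card_univ] at h3
  have h4 := HWF_mul (HWF_mul (HWF_pow h1 α) (HWF_pow h2 β)) (HWF_pow h3 (1 + γ))
  have h5 : α • 4 • om m i + β • (Fintype.card (Tau i) - 1) • 4 • om m i +
      (1 + γ) • Fintype.card (Tau i) • 4 • om m i = (4 * c) • om m i := by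
    rw [smul_smul, smul_smul, smul_smul, smul_smul, smul_smul, ← add_smul, ← add_smul, ← h]
    congr 1
    ring
  rw [h5] at h4
  exact h4

/-- Two prescribed values. -/
lemma exists_tau {k : ℕ} (f : Fin k ↪ (Fin i ⊕ Fin i)) (g : Fin k ↪ Fin (2 * i - 1 + 1))
    (hi : 1 ≤ i) : ∃ τ : Tau i, ∀ x, τ (f x) = g x := by
  have hcard : i + i = 2 * i - 1 + 1 := by omega
  let e : Tau i := finSumFinEquiv.trans (finCongr hcard)
  have := Equiv.Perm.isMultiplyPretransitive (Fin (2 * i - 1 + 1)) k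
  obtain ⟨σ, hσ⟩ := MulAction.exists_smul_eq (Equiv.Perm (Fin (2 * i - 1 + 1)))
    (f.trans e.toEmbedding) g
  refine ⟨e.trans σ, fun x => ?_⟩
  have h := DFunLike.congr_fun hσ x
  exact h

lemma F3_diag (hi : 2 ≤ i) (him : i ≤ m) (p : Fin (2 * i - 1 + 1) → Fin m → ℂ)
    (u v : Fin (2 * i - 1 + 1)) (huv : u ≠ v) (h : p u = p v) : F3 him p = 0 := by
  obtain ⟨τ, hτ⟩ := exists_tau (i := i) (k := 2)
    ⟨fun x => Sum.inl (Fin.castLE hi x), fun x y hxy => by
      have := Sum.inl_injective hxy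
      exact Fin.castLE_injective hi this⟩
    ⟨![u, v], by
      intro x y hxy
      fin_cases x <;> fin_cases y <;> simp_all [huv.symm]⟩ (by omega)
  have h0 : τ (Sum.inl (Fin.castLE hi 0)) = u := hτ 0
  have h1 : τ (Sum.inl (Fin.castLE hi 1)) = v := hτ 1
  rw [F3, Finset.prod_apply]
  refine Finset.prod_eq_zero (Finset.mem_univ τ) ?_
  have h2 : H350.dt i m him (fun a => p (τ (Sum.inl a))) = 0 := by
    rw [H350.dt]
    refine Matrix.det_zero_of_row_eq (i := Fin.castLE hi 0) (j := Fin.castLE hi 1) ?_ ?_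
    · intro h3
      have := Fin.castLE_injective hi h3
      exact absurd this (by decide)
    · funext b
      simp only [Matrix.of_apply]
      rw [h0, h1, h]
  rw [YT, Pi.pow_apply, DD, h2, zero_mul, zero_pow (by norm_num)]

lemma GG_diag (hi : 2 ≤ i) (him : i ≤ m) (α β γ : ℕ) (p : Fin (2 * i - 1 + 1) → Fin m → ℂ)
    (u v : Fin (2 * i - 1 + 1)) (huv : u ≠ v) (h : p u = p v) : GG him α β γ p = 0 := by
  rw [GG, Pi.mul_apply, Pi.pow_apply, F3_diag hi him p u v huv h, zero_pow (by omega), mul_zero]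

end Vale.Agent.P181.FR.H866
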