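import Vale.Agent.P181.R2.H866.W7A
import Mathlib.LinearAlgebra.Vandermonde

/-!
P181, all partitions with few rows, row W7 (degrees on a curve): the leading terms.
-/

set_option autoImplicit false

namespace Vale.Agent.P181.FR.H866

open Vale.Agent.P181 Vale.Agent.P181.H280 Vale.Agent.P181.FR Polynomial

/-! ### Leading terms -/

/-- Degree at most `d` and the coefficient of degree `d` is not zero. -/
def NZ (p : ℝ[X]) (d : ℕ) : Prop := p.natDegree ≤ d ∧ p.coeff d ≠ 0

/-- Degree at most `d` and the coefficient of degree `d` is positive. -/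
def IP (p : ℝ[X]) (d : ℕ) : Prop := p.natDegree ≤ d ∧ 0 < p.coeff d

lemma NZ.mul {p q : ℝ[X]} {d e : ℕ} (hp : NZ p d) (hq : NZ q e) : NZ (p * q) (d + e) := by
  refine ⟨Polynomial.natDegree_mul_le_of_le hp.1 hq.1, ?_⟩
  rw [Polynomial.coeff_mul_add_eq_of_natDegree_le hp.1 hq.1]
  exact mul_ne_zero hp.2 hq.2

lemma NZ.sqr {p : ℝ[X]} {d : ℕ} (hp : NZ p d) : IP (p ^ 2) (2 * d) := by
  rw [pow_two, two_mul]
  refine ⟨Polynomial.natDegree_mul_le_of_le hp.1 hp.1, ?_⟩
  rw [Polynomial.coeff_mul_add_eq_of_natDegree_le hp.1 hp.1]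
  exact mul_self_pos.2 hp.2

lemma IP.mul {p q : ℝ[X]} {d e : ℕ} (hp : IP p d) (hq : IP q e) : IP (p * q) (d + e) := by
  refine ⟨Polynomial.natDegree_mul_le_of_le hp.1 hq.1, ?_⟩
  rw [Polynomial.coeff_mul_add_eq_of_natDegree_le hp.1 hq.1]
  exact mul_pos hp.2 hq.2

lemma IP.one : IP 1 0 := by
  refine ⟨by simp, by simp⟩

lemma IP.pow {p : ℝ[X]} {d : ℕ} (hp : IP p d) (k : ℕ) : IP (p ^ k) (k * d) := by
  induction k with
  | zero => rw [pow_zero, zero_mul]; exact IP.one
  | succ k ih => rw [pow_succ, Nat.succ_mul]; exact ih.mul hp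

lemma IP.prod {ι : Type*} [DecidableEq ι] {p : ι → ℝ[X]} {d : ι → ℕ} (S : Finset ι)
    (h : ∀ x ∈ S, IP (p x) (d x)) : IP (∏ x ∈ S, p x) (∑ x ∈ S, d x) := by
  induction S using Finset.induction_on with
  | empty => simpa using IP.one
  | insert x S hx ih =>
    rw [Finset.prod_insert hx, Finset.sum_insert hx]
    exact (h x (Finset.mem_insert_self _ _)).mul
      (ih fun y hy => h y (Finset.mem_insert_of_mem hy))

lemma IP.sum {ι : Type*} {p : ι → ℝ[X]} {d : ι → ℕ} {D : ℕ} (S : Finset ι)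
    (h : ∀ x ∈ S, IP (p x) (d x)) (hD : ∀ x ∈ S, d x ≤ D) {x₀ : ι} (hx₀ : x₀ ∈ S)
    (h0 : d x₀ = D) : IP (∑ x ∈ S, p x) D := by
  refine ⟨Polynomial.natDegree_sum_le_of_forall_le S p fun x hx => (h x hx).1.trans (hD x hx), ?_⟩
  rw [Polynomial.finsetSum_coeff]
  refine Finset.sum_pos' (fun x hx => ?_) ⟨x₀, hx₀, ?_⟩
  · rcases lt_or_eq_of_le (hD x hx) with h1 | h1
    · rw [Polynomial.coeff_eq_zero_of_natDegree_lt (lt_of_le_of_lt (h x hx).1 h1)]
    · rw [← h1]; exact (h x hx).2.le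
  · rw [← h0]; exact (h x₀ hx₀).2

lemma IP.ne_zero {p : ℝ[X]} {d : ℕ} (hp : IP p d) : p ≠ 0 := by
  rintro rfl
  exact absurd hp.2 (by simp)

lemma IP.natDegree {p : ℝ[X]} {d : ℕ} (hp : IP p d) : p.natDegree = d :=
  le_antisymm hp.1 (Polynomial.le_natDegree_of_ne_zero hp.2.ne')

/-! ### The minors on the curve -/

variable {i m : ℕ}

/-- The coordinates of the points: `v(j)` for `j` not the last, and the curve
`t^L v(0) + t^(L-1) v(1) + v(last)` for the last one. -/
noncomputable def pt (i L : ℕ) (j : Fin (2 * i - 1 + 1)) (k : ℕ) : ℝ[X] :=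
  if j = Fin.last (2 * i - 1) then
    X ^ L * C ((0 : ℝ) ^ k) + X ^ (L - 1) * C ((1 : ℝ) ^ k) + C (((j : ℕ) : ℝ) ^ k)
  else C (((j : ℕ) : ℝ) ^ k)

/-- The minor. -/
noncomputable def mn (i L : ℕ) (s : Fin i → Fin (2 * i - 1 + 1)) : ℝ[X] :=
  Matrix.det (Matrix.of fun a b : Fin i => pt i L (s a) b)

/-- The nodes. -/
noncomputable def nd (s : Fin i → Fin (2 * i - 1 + 1)) : Fin i → ℝ := fun a => ((s a : ℕ) : ℝ)

lemma nd_inj {s : Fin i → Fin (2 * i - 1 + 1)} (hs : Function.Injective s) :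
    Function.Injective (nd s) := by
  intro a b hab
  apply hs
  apply Fin.ext
  have h : ((s a : ℕ) : ℝ) = ((s b : ℕ) : ℝ) := hab
  exact_mod_cast h

lemma mn_const {L : ℕ} {s : Fin i → Fin (2 * i - 1 + 1)} (hs : Function.Injective s)
    (hl : ∀ a, s a ≠ Fin.last (2 * i - 1)) : NZ (mn i L s) 0 := by
  have h1 : mn i L s = C (Matrix.det (Matrix.vandermonde (nd s))) := by
    rw [mn, RingHom.map_det]
    congr 1
    ext a b : 2
    rw [Matrix.of_apply, pt, if_neg (hl a), RingHom.mapMatrix_apply, Matrix.map_apply,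
      Matrix.vandermonde_apply]
    rfl
  rw [h1]
  refine ⟨by rw [natDegree_C], ?_⟩
  rw [coeff_C_zero]
  exact Matrix.det_vandermonde_ne_zero_iff.2 (nd_inj hs)

lemma vand_update (x : Fin i → ℝ) (a : Fin i) (y : ℝ) :
    (Matrix.vandermonde (Function.update x a y)).map (C : ℝ →+* ℝ[X]) =
      ((Matrix.vandermonde x).map (C : ℝ →+* ℝ[X])).updateRow a (fun b => (C (y ^ (b : ℕ)) : ℝ[X])) := by
  ext a' b : 2
  rw [Matrix.map_apply, Matrix.vandermonde_apply]
  by_cases h : a' = a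
  · subst h
    rw [Matrix.updateRow_self, Function.update_self]
  · rw [Matrix.updateRow_ne h, Function.update_of_ne h, Matrix.map_apply,
      Matrix.vandermonde_apply]

lemma mn_last {L : ℕ} {s : Fin i → Fin (2 * i - 1 + 1)} (hs : Function.Injective s)
    {a₀ : Fin i} (hl : s a₀ = Fin.last (2 * i - 1)) : mn i L s =
      X ^ L * C (Matrix.det (Matrix.vandermonde (Function.update (nd s) a₀ 0))) +
      X ^ (L - 1) * C (Matrix.det (Matrix.vandermonde (Function.update (nd s) a₀ 1))) +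
      C (Matrix.det (Matrix.vandermonde (nd s))) := by
  have h1 : (Matrix.of fun a b : Fin i => pt i L (s a) b) =
      ((Matrix.vandermonde (nd s)).map (C : ℝ →+* ℝ[X])).updateRow a₀
        ((X ^ L : ℝ[X]) • (fun b : Fin i => (C ((0 : ℝ) ^ (b : ℕ)) : ℝ[X])) +
          (X ^ (L - 1) : ℝ[X]) • (fun b : Fin i => (C ((1 : ℝ) ^ (b : ℕ)) : ℝ[X])) +
          (fun b : Fin i => (C ((nd s a₀) ^ (b : ℕ)) : ℝ[X]))) := by
    ext a b : 2
    rw [Matrix.of_apply, pt]
    by_cases h : a = a₀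
    · subst h
      rw [if_pos hl, Matrix.updateRow_self]
      rfl
    · rw [if_neg, Matrix.updateRow_ne h, Matrix.map_apply, Matrix.vandermonde_apply]
      · rfl
      · intro h'
        exact h (hs (h'.trans hl.symm))
  have h2 : Matrix.det (((Matrix.vandermonde (nd s)).map (C : ℝ →+* ℝ[X])).updateRow a₀
      (fun b : Fin i => (C ((nd s a₀) ^ (b : ℕ)) : ℝ[X]))) =
      C (Matrix.det (Matrix.vandermonde (nd s))) := by
    rw [← vand_update, Function.update_eq_self]
    exact (RingHom.map_det _ _).symm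
  have h3 : ∀ y : ℝ, Matrix.det (((Matrix.vandermonde (nd s)).map (C : ℝ →+* ℝ[X])).updateRow a₀
      (fun b : Fin i => (C (y ^ (b : ℕ)) : ℝ[X]))) =
      C (Matrix.det (Matrix.vandermonde (Function.update (nd s) a₀ y))) := by
    intro y
    rw [← vand_update]
    exact (RingHom.map_det _ _).symm
  rw [mn, h1, Matrix.det_updateRow_add, Matrix.det_updateRow_add, Matrix.det_updateRow_smul,
    Matrix.det_updateRow_smul, h2, h3, h3]

/-- The degree of the minor which contains the last point. -/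
lemma mn_deg {L : ℕ} (hL : 2 ≤ L) (hi : 3 ≤ i) {s : Fin i → Fin (2 * i - 1 + 1)}
    (hs : Function.Injective s) {a₀ : Fin i} (hl : s a₀ = Fin.last (2 * i - 1)) :
    ((∀ a, (s a : ℕ) ≠ 0) → NZ (mn i L s) L) ∧
    ((∃ a, (s a : ℕ) = 0) → (∀ a, (s a : ℕ) ≠ 1) → NZ (mn i L s) (L - 1)) ∧
    ((∃ a, (s a : ℕ) = 0) → (∃ a, (s a : ℕ) = 1) → NZ (mn i L s) 0) := by
  have hla : ((s a₀ : ℕ) : ℝ) = (2 * i - 1 : ℕ) := by
    rw [hl]; rfl
  have hw : Matrix.det (Matrix.vandermonde (nd s)) ≠ 0 :=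
    Matrix.det_vandermonde_ne_zero_iff.2 (nd_inj hs)
  have hupd : ∀ y : ℕ, (∀ a, (s a : ℕ) ≠ y) →
      Matrix.det (Matrix.vandermonde (Function.update (nd s) a₀ (y : ℝ))) ≠ 0 := by
    intro y hy
    apply Matrix.det_vandermonde_ne_zero_iff.2
    intro a b hab
    by_cases h1 : a = a₀
    · by_cases h2 : b = a₀
      · rw [h1, h2]
      · rw [h1, Function.update_self, Function.update_of_ne h2] at hab
        have h3 : ((s b : ℕ) : ℝ) = (y : ℝ) := hab.symm
        exact absurd (show (s b : ℕ) = y by exact_mod_cast h3) (hy b)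
    · by_cases h2 : b = a₀
      · rw [h2, Function.update_self, Function.update_of_ne h1] at hab
        have h3 : ((s a : ℕ) : ℝ) = (y : ℝ) := hab
        exact absurd (show (s a : ℕ) = y by exact_mod_cast h3) (hy a)
      · rw [Function.update_of_ne h1, Function.update_of_ne h2] at hab
        exact nd_inj hs hab
  have hzero : ∀ y : ℕ, y ≤ 1 → (∃ a, (s a : ℕ) = y) →
      Matrix.det (Matrix.vandermonde (Function.update (nd s) a₀ (y : ℝ))) = 0 := by
    rintro y hy1 ⟨a, ha⟩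
    by_contra hne
    have h1 := Matrix.det_vandermonde_ne_zero_iff.1 hne
    have h2 : a ≠ a₀ := by
      rintro rfl
      have h3 : (s a : ℕ) = 2 * i - 1 := by rw [hl]; rfl
      omega
    apply h2
    apply h1
    rw [Function.update_of_ne h2, Function.update_self, nd, ha]
  have h0 : ((0 : ℕ) : ℝ) = 0 := Nat.cast_zero
  have h1 : ((1 : ℕ) : ℝ) = 1 := Nat.cast_one
  rw [mn_last hs hl]
  refine ⟨fun hA => ?_, fun hA hB => ?_, fun hA hB => ?_⟩
  · have h2 := hupd 0 hA
    rw [h0] at h2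
    refine ⟨?_, ?_⟩
    · refine (natDegree_add_le _ _).trans (max_le ((natDegree_add_le _ _).trans (max_le ?_ ?_)) ?_)
      · exact (natDegree_mul_C_le _ _).trans (natDegree_X_pow_le _)
      · exact (natDegree_mul_C_le _ _).trans ((natDegree_X_pow_le _).trans (Nat.sub_le _ _))
      · rw [natDegree_C]; exact Nat.zero_le _
    · rw [coeff_add, coeff_add, coeff_mul_C, coeff_X_pow_self, coeff_mul_C,
        coeff_X_pow, if_neg (by omega), coeff_C, if_neg (by omega)]
      simpa using h2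
  · have h2 := hzero 0 (by norm_num) hA
    have h3 := hupd 1 hB
    rw [h0] at h2
    rw [h1] at h3
    rw [h2, C_0, mul_zero, zero_add]
    refine ⟨?_, ?_⟩
    · refine (natDegree_add_le _ _).trans (max_le ?_ ?_)
      · exact (natDegree_mul_C_le _ _).trans (natDegree_X_pow_le _)
      · rw [natDegree_C]; exact Nat.zero_le _
    · rw [coeff_add, coeff_mul_C, coeff_X_pow_self, coeff_C, if_neg (by omega)]
      simpa using h3
  · have h2 := hzero 0 (by norm_num) hA
    have h3 := hzero 1 le_rfl hB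
    rw [h0] at h2
    rw [h1] at h3
    rw [h2, h3, C_0, mul_zero, mul_zero, zero_add, zero_add]
    refine ⟨by rw [natDegree_C], ?_⟩
    rw [coeff_C_zero]
    exact hw

end Vale.Agent.P181.FR.H866
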