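import Vale.Agent.P181.R2.H866.W7B

/-!
P181, all partitions with few rows, row W7: the degrees of the family on the curve.
-/

set_option autoImplicit false

namespace Vale.Agent.P181.FR.H866

open Vale.Agent.P181 Vale.Agent.P181.H280 Vale.Agent.P181.FR Polynomial

variable {i m : ℕ}

/-- The point number `j`. -/
def idx (i j : ℕ) (h : j < 2 * i - 1 + 1) : Fin (2 * i - 1 + 1) := ⟨j, h⟩

/-- The side of a point. -/
def side (τ : Tau i) (j : Fin (2 * i - 1 + 1)) : Bool := (τ.symm j).isLeft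

/-- The point `j` is on the side of the last point. -/
def Same (τ : Tau i) (j : ℕ) : Prop :=
  ∀ x : Fin (2 * i - 1 + 1), (x : ℕ) = j → side τ x = side τ (Fin.last (2 * i - 1))

open Classical in
/-- The degree of the product of the minors. -/
noncomputable def ep (L : ℕ) (τ : Tau i) : ℕ :=
  if Same τ 0 then (if Same τ 1 then 0 else L - 1) else L

/-- The product of the minors on the curve. -/
noncomputable def dd (L : ℕ) (τ : Tau i) : ℝ[X] :=
  mn i L (fun a => τ (Sum.inl a)) * mn i L (fun a => τ (Sum.inr a))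

lemma inl_inj (τ : Tau i) : Function.Injective (fun a => τ (Sum.inl a)) :=
  τ.injective.comp Sum.inl_injective

lemma inr_inj (τ : Tau i) : Function.Injective (fun a => τ (Sum.inr a)) :=
  τ.injective.comp Sum.inr_injective

lemma dd_NZ {L : ℕ} (hL : 2 ≤ L) (hi : 3 ≤ i) (τ : Tau i) : NZ (dd L τ) (ep L τ) := by
  classical
  have key : ∀ (s s' : Fin i → Fin (2 * i - 1 + 1)) (hs : Function.Injective s)
      (hs' : Function.Injective s') (a₀ : Fin i), s a₀ = Fin.last (2 * i - 1) →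
      (∀ x : Fin (2 * i - 1 + 1), (side τ x = side τ (Fin.last (2 * i - 1))) ↔ ∃ a, s a = x) →
      (∀ a b, s a ≠ s' b) → NZ (mn i L s * mn i L s') (ep L τ) := by
    intro s s' hs hs' a₀ hl hside hdis
    have h1 : NZ (mn i L s') 0 := mn_const hs' fun b hb => hdis a₀ b (hl.trans hb.symm)
    obtain ⟨c1, c2, c3⟩ := mn_deg hL hi hs hl
    have hsame : ∀ j : ℕ, j < 2 * i - 1 + 1 → (Same τ j ↔ ∃ a, (s a : ℕ) = j) := by
      intro j hj
      constructor
      · intro h
        obtain ⟨a, ha⟩ := (hside ⟨j, hj⟩).1 (h ⟨j, hj⟩ rfl)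
        exact ⟨a, by rw [ha]⟩
      · rintro ⟨a, ha⟩ x hx
        exact (hside x).2 ⟨a, Fin.ext (ha.trans hx.symm)⟩
    have h2 : NZ (mn i L s) (ep L τ) := by
      rw [ep]
      by_cases hA : Same τ 0
      · have hA' := (hsame 0 (by omega)).1 hA
        by_cases hB : Same τ 1
        · rw [if_pos hA, if_pos hB]
          exact c3 hA' ((hsame 1 (by omega)).1 hB)
        · rw [if_pos hA, if_neg hB]
          refine c2 hA' fun a ha => hB ((hsame 1 (by omega)).2 ⟨a, ha⟩)
      · rw [if_neg hA]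
        exact c1 fun a ha => hA ((hsame 0 (by omega)).2 ⟨a, ha⟩)
    have h3 := h2.mul h1
    rwa [add_zero] at h3
  rw [dd]
  rcases h : τ.symm (Fin.last (2 * i - 1)) with a₀ | a₀
  · have hl : τ (Sum.inl a₀) = Fin.last (2 * i - 1) := by rw [← h, Equiv.apply_symm_apply]
    refine key _ _ (inl_inj τ) (inr_inj τ) a₀ hl ?_ ?_
    · intro x
      rw [side, side, h]
      constructor
      · intro hx
        rcases hx' : τ.symm x with a | a
        · exact ⟨a, by rw [← hx', Equiv.apply_symm_apply]⟩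
        · rw [hx'] at hx
          exact absurd hx (by simp)
      · rintro ⟨a, rfl⟩
        rw [Equiv.symm_apply_apply]
        rfl
    · intro a b hab
      exact absurd (τ.injective hab) (by simp)
  · have hl : τ (Sum.inr a₀) = Fin.last (2 * i - 1) := by rw [← h, Equiv.apply_symm_apply]
    rw [mul_comm]
    refine key _ _ (inr_inj τ) (inl_inj τ) a₀ hl ?_ ?_
    · intro x
      rw [side, side, h]
      constructor
      · intro hx
        rcases hx' : τ.symm x with a | a
        · rw [hx'] at hx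
          exact absurd hx (by simp)
        · exact ⟨a, by rw [← hx', Equiv.apply_symm_apply]⟩
      · rintro ⟨a, rfl⟩
        rw [Equiv.symm_apply_apply]
        rfl
    · intro a b hab
      exact absurd (τ.injective hab) (by simp)

/-- The polynomials on the curve. -/
noncomputable def yy (L : ℕ) (τ : Tau i) : ℝ[X] := dd L τ ^ 2

lemma yy_IP {L : ℕ} (hL : 2 ≤ L) (hi : 3 ≤ i) (τ : Tau i) : IP (yy L τ) (2 * ep L τ) :=
  (dd_NZ hL hi τ).sqr

lemma ep_le {L : ℕ} (τ : Tau i) : ep L τ ≤ L := by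
  rw [ep]
  split_ifs
  · exact Nat.zero_le _
  · exact Nat.sub_le _ _
  · exact le_rfl

/-- Splittings with three prescribed values. -/
lemma exists_three (hi : 3 ≤ i) (c : Fin 3 → Bool) : ∃ τ : Tau i,
    side τ (Fin.last (2 * i - 1)) = c 0 ∧ side τ (idx i 0 (by omega)) = c 1 ∧
      side τ (idx i 1 (by omega)) = c 2 := by
  obtain ⟨τ, hτ⟩ := exists_tau (i := i) (k := 3)
    ⟨fun x => if c x then Sum.inl (Fin.castLE hi x) else Sum.inr (Fin.castLE hi x), by
      intro x y hxy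
      by_cases hx : c x
      · by_cases hy : c y
        · simp only [hx, hy, if_true] at hxy
          exact Fin.castLE_injective hi (Sum.inl_injective hxy)
        · simp [hx, hy] at hxy
      · by_cases hy : c y
        · simp [hx, hy] at hxy
        · simp only [hx, hy] at hxy
          exact Fin.castLE_injective hi (Sum.inr_injective hxy)⟩
    ⟨![Fin.last (2 * i - 1), idx i 0 (by omega), idx i 1 (by omega)], by
      intro x y hxy
      have h0 : (Fin.last (2 * i - 1)) ≠ idx i 0 (by omega) := by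
        rw [Ne, Fin.ext_iff, idx, Fin.val_last]
        simp only
        omega
      have h1 : (Fin.last (2 * i - 1)) ≠ idx i 1 (by omega) := by
        rw [Ne, Fin.ext_iff, idx, Fin.val_last]
        simp only
        omega
      have h2 : (idx i 0 (by omega)) ≠ idx i 1 (by omega) := by
        rw [Ne, Fin.ext_iff, idx, idx]
        simp only
        omega
      fin_cases x <;> fin_cases y <;> simp_all [h0.symm, h1.symm, h2.symm]⟩ (by omega)
  have h3 : ∀ x, side τ ((![Fin.last (2 * i - 1), idx i 0 (by omega), idx i 1 (by omega)] :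
      Fin 3 → Fin (2 * i - 1 + 1)) x) = c x := by
    intro x
    have h4 : τ (if c x then Sum.inl (Fin.castLE hi x) else Sum.inr (Fin.castLE hi x)) =
        (![Fin.last (2 * i - 1), idx i 0 (by omega), idx i 1 (by omega)] :
          Fin 3 → Fin (2 * i - 1 + 1)) x := hτ x
    rw [side, ← h4, Equiv.symm_apply_apply]
    by_cases hx : c x
    · simp [hx]
    · simp [hx]
  exact ⟨τ, h3 0, h3 1, h3 2⟩

lemma same_iff {τ : Tau i} {j : ℕ} (hj : j < 2 * i - 1 + 1) :
    Same τ j ↔ side τ (idx i j hj) = side τ (Fin.last (2 * i - 1)) := by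
  constructor
  · intro h
    exact h _ rfl
  · intro h x hx
    have : x = idx i j hj := Fin.ext hx
    rw [this, h]

/-- The number of points of type 2. -/
noncomputable def n2 (i : ℕ) : ℕ := by
  classical
  exact (Finset.univ.filter fun τ : Tau i => Same τ 0 ∧ Same τ 1).card

/-- The number of points of type 1. -/
noncomputable def n1 (i : ℕ) : ℕ := by
  classical
  exact (Finset.univ.filter fun τ : Tau i => Same τ 0 ∧ ¬ Same τ 1).card

/-- The degree of the product. -/
noncomputable def EE (i L : ℕ) : ℕ := ∑ τ : Tau i, ep L τ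

lemma EE_eq {L : ℕ} (hL : 2 ≤ L) : EE i L + L * n2 i + n1 i = L * Fintype.card (Tau i) := by
  classical
  have h : ∀ τ : Tau i, ep L τ + L * (if Same τ 0 ∧ Same τ 1 then 1 else 0) +
      (if Same τ 0 ∧ ¬ Same τ 1 then 1 else 0) = L := by
    intro τ
    rw [ep]
    by_cases h0 : Same τ 0
    · by_cases h1 : Same τ 1
      · simp [h0, h1]
      · simp [h0, h1]
        omega
    · simp [h0]
  have h2 := Finset.sum_congr (rfl : (Finset.univ : Finset (Tau i)) = Finset.univ)
    fun τ _ => h τ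
  rw [Finset.sum_add_distrib, Finset.sum_add_distrib, ← Finset.mul_sum, Finset.sum_const,
    Finset.card_univ, smul_eq_mul, mul_comm (Fintype.card (Tau i)), Finset.sum_boole,
    Finset.sum_boole] at h2
  simpa [EE, n1, n2] using h2

lemma n1_pos (hi : 3 ≤ i) : 1 ≤ n1 i := by
  classical
  obtain ⟨τ, h1, h2, h3⟩ := exists_three hi ![true, true, false]
  rw [n1]
  refine Finset.card_pos.2 ⟨τ, Finset.mem_filter.2 ⟨Finset.mem_univ _, ?_, ?_⟩⟩
  · rw [same_iff (by omega), h2, h1]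
    rfl
  · rw [same_iff (by omega), h3, h1]
    simp

lemma n1_le : n1 i ≤ Fintype.card (Tau i) := by
  classical
  rw [n1]
  exact Finset.card_le_univ _

lemma exists_ep_L (hi : 3 ≤ i) (L : ℕ) : ∃ τ : Tau i, ep L τ = L := by
  obtain ⟨τ, h1, h2, h3⟩ := exists_three hi ![true, false, false]
  refine ⟨τ, ?_⟩
  rw [ep, if_neg]
  rw [same_iff (by omega), h2, h1]
  simp

lemma exists_ep_0 (hi : 3 ≤ i) (L : ℕ) : ∃ τ : Tau i, ep L τ = 0 := by
  obtain ⟨τ, h1, h2, h3⟩ := exists_three hi ![true, true, true]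
  refine ⟨τ, ?_⟩
  rw [ep, if_pos, if_pos]
  · rw [same_iff (by omega), h3, h1]
    rfl
  · rw [same_iff (by omega), h2, h1]
    rfl

/-- The sum on the curve. -/
noncomputable def f1 (i L : ℕ) : ℝ[X] := ∑ τ : Tau i, yy L τ

/-- The sum of the products of all but one on the curve. -/
noncomputable def f2 (i L : ℕ) : ℝ[X] := ∑ τ : Tau i, ∏ τ' ∈ Finset.univ.erase τ, yy L τ'

/-- The product on the curve. -/
noncomputable def f3 (i L : ℕ) : ℝ[X] := ∏ τ : Tau i, yy L τ

/-- The family on the curve. -/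
noncomputable def gg (i L α β γ : ℕ) : ℝ[X] := f1 i L ^ α * f2 i L ^ β * f3 i L ^ (1 + γ)

lemma f1_IP {L : ℕ} (hL : 2 ≤ L) (hi : 3 ≤ i) : IP (f1 i L) (2 * L) := by
  obtain ⟨τ₀, hτ₀⟩ := exists_ep_L hi L
  exact IP.sum _ (fun τ _ => yy_IP hL hi τ) (fun τ _ => Nat.mul_le_mul_left 2 (ep_le τ))
    (Finset.mem_univ τ₀) (by rw [hτ₀])

lemma f3_IP {L : ℕ} (hL : 2 ≤ L) (hi : 3 ≤ i) : IP (f3 i L) (2 * EE i L) := by
  classical
  have h := IP.prod (Finset.univ : Finset (Tau i)) (fun τ _ => yy_IP hL hi τ)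
  rwa [← Finset.mul_sum] at h

lemma f2_IP {L : ℕ} (hL : 2 ≤ L) (hi : 3 ≤ i) : IP (f2 i L) (2 * EE i L) := by
  classical
  obtain ⟨τ₀, hτ₀⟩ := exists_ep_0 hi L
  have h : ∀ τ : Tau i, IP (∏ τ' ∈ Finset.univ.erase τ, yy L τ')
      (∑ τ' ∈ Finset.univ.erase τ, 2 * ep L τ') := fun τ =>
    IP.prod _ (fun τ' _ => yy_IP hL hi τ')
  refine IP.sum _ (fun τ _ => h τ) (fun τ _ => ?_) (Finset.mem_univ τ₀) ?_
  · rw [← Finset.mul_sum]
    exact Nat.mul_le_mul_left 2 (Finset.sum_le_sum_of_subset (Finset.erase_subset _ _))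
  · rw [← Finset.mul_sum, EE, ← Finset.add_sum_erase Finset.univ _ (Finset.mem_univ τ₀), hτ₀,
      zero_add]

lemma gg_IP {L : ℕ} (hL : 2 ≤ L) (hi : 3 ≤ i) (α β γ : ℕ) :
    IP (gg i L α β γ) (α * (2 * L) + β * (2 * EE i L) + (1 + γ) * (2 * EE i L)) :=
  (((f1_IP hL hi).pow α).mul ((f2_IP hL hi).pow β)).mul ((f3_IP hL hi).pow (1 + γ))

/-- The degrees are distinct. -/
lemma degrees {N h c n1 n2 E L : ℕ} (hL : L = 2 * N * h + 2) (hn : 1 ≤ n1) (hnN : n1 ≤ N)
    (hE : E + L * n2 + n1 = L * N) {α β γ α' β' γ' : ℕ} (hβ : β < h) (hγ : γ < h) (hβ' : β' < h)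
    (hγ' : γ' < h) (h1 : α + (N - 1) * β + N * (1 + γ) = c)
    (h2 : α' + (N - 1) * β' + N * (1 + γ') = c)
    (h3 : α * (2 * L) + β * (2 * E) + (1 + γ) * (2 * E) =
      α' * (2 * L) + β' * (2 * E) + (1 + γ') * (2 * E)) : β = β' ∧ γ = γ' := by
  obtain ⟨N', rfl⟩ : ∃ N', N = N' + 1 := ⟨N - 1, by omega⟩
  rw [Nat.add_sub_cancel] at h1 h2
  have h1' : (α : ℤ) + N' * β + (N' + 1) * (1 + γ) = c := by exact_mod_cast h1
  have h2' : (α' : ℤ) + N' * β' + (N' + 1) * (1 + γ') = c := by exact_mod_cast h2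
  have hE' : (E : ℤ) + L * n2 + n1 = L * (N' + 1) := by exact_mod_cast hE
  have h3' : (α : ℤ) * (2 * L) + β * (2 * E) + (1 + γ) * (2 * E) =
      α' * (2 * L) + β' * (2 * E) + (1 + γ') * (2 * E) := by exact_mod_cast h3
  set s : ℤ := (β : ℤ) + γ - β' - γ' with hs
  have h4 : (L : ℤ) * ((β : ℤ) - β' - n2 * s) = n1 * s := by
    have e1 : (E : ℤ) = L * (N' + 1) - L * n2 - n1 := by linarith
    have e2 : (α : ℤ) = c - N' * β - (N' + 1) * (1 + γ) := by linarith
    have e3 : (α' : ℤ) = c - N' * β' - (N' + 1) * (1 + γ') := by linarith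
    rw [e1, e2, e3] at h3'
    apply mul_left_cancel₀ (two_ne_zero : (2 : ℤ) ≠ 0)
    rw [hs]
    linear_combination h3'
  have hsb : |s| ≤ 2 * h := by
    rw [abs_le]
    constructor
    · rw [hs]; omega
    · rw [hs]; omega
  have h5 : |(n1 : ℤ) * s| < L := by
    rw [abs_mul, Nat.abs_cast]
    have e1 : (n1 : ℤ) * |s| ≤ (N' + 1) * (2 * h) :=
      mul_le_mul (by exact_mod_cast hnN) hsb (abs_nonneg _) (by positivity)
    have e2 : (L : ℤ) = 2 * (N' + 1) * h + 2 := by rw [hL]; push_cast; ring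
    rw [e2]
    linarith
  have h6 : (n1 : ℤ) * s = 0 := Int.eq_zero_of_abs_lt_dvd ⟨_, h4.symm⟩ h5
  have hs0 : s = 0 := by
    rcases mul_eq_zero.1 h6 with h7 | h7
    · exfalso
      have : n1 = 0 := by exact_mod_cast h7
      omega
    · exact h7
  rw [hs0, mul_zero, mul_zero, sub_zero] at h4
  have hL0 : (L : ℤ) ≠ 0 := by
    rw [hL]; positivity
  have h8 : (β : ℤ) - β' = 0 := by
    rcases mul_eq_zero.1 h4 with h7 | h7
    · exact absurd h7 hL0
    · exact h7
  constructor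
  · omega
  · omega

/-! ### Evaluation on the curve -/

/-- The fixed points. -/
noncomputable def PP (i m : ℕ) : Fin (2 * i - 1) → Fin m → ℂ := fun j k => ((j : ℕ) : ℂ) ^ (k : ℕ)

/-- The curve. -/
noncomputable def qq (i m L : ℕ) (t : ℂ) : Fin m → ℂ := fun k =>
  t ^ L * (0 : ℂ) ^ (k : ℕ) + t ^ (L - 1) * (1 : ℂ) ^ (k : ℕ) + ((2 * i - 1 : ℕ) : ℂ) ^ (k : ℕ)

/-- All the points. -/
noncomputable def pp (i m L : ℕ) (t : ℂ) : Fin (2 * i - 1 + 1) → Fin m → ℂ :=
  Fin.snoc (α := fun _ => Fin m → ℂ) (PP i m) (qq i m L t)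

lemma pp_eval (him : i ≤ m) (L : ℕ) (t : ℂ) (j : Fin (2 * i - 1 + 1)) (k : Fin i) :
    pp i m L t j (Fin.castLE him k) = aeval t (pt i L j k) := by
  refine Fin.lastCases ?_ (fun j => ?_) j
  · rw [pp, Fin.snoc_last, qq, pt, if_pos rfl]
    simp
  · rw [pp, Fin.snoc_castSucc, PP, pt, if_neg (Fin.castSucc_lt_last j).ne]
    simp

lemma dt_eval (him : i ≤ m) (L : ℕ) (t : ℂ) (s : Fin i → Fin (2 * i - 1 + 1)) :
    H350.dt i m him (fun a => pp i m L t (s a)) = aeval t (mn i L s) := by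
  rw [H350.dt, mn, AlgHom.map_det]
  congr 1
  ext a b
  rw [Matrix.of_apply, pp_eval]
  rfl

lemma YT_eval (him : i ≤ m) (L : ℕ) (t : ℂ) (τ : Tau i) :
    YT him τ (pp i m L t) = aeval t (yy L τ) := by
  rw [YT, Pi.pow_apply, DD, dt_eval him L t (fun a => τ (Sum.inl a)),
    dt_eval him L t (fun a => τ (Sum.inr a)), yy, dd, map_pow, map_mul]

lemma GG_eval (him : i ≤ m) (L : ℕ) (t : ℂ) (α β γ : ℕ) :
    GG him α β γ (pp i m L t) = aeval t (gg i L α β γ) := by
  rw [GG, gg, Pi.mul_apply, Pi.mul_apply, Pi.pow_apply, Pi.pow_apply, Pi.pow_apply, F1, F2, F3,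
    f1, f2, f3, Finset.sum_apply, Finset.sum_apply, Finset.prod_apply, map_mul, map_mul, map_pow,
    map_pow, map_pow, map_sum, map_sum, map_prod]
  simp only [Finset.prod_apply, YT_eval, map_prod]

end Vale.Agent.P181.FR.H866
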