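import Vale.Agent.P181.R2.H866.W7C

/-!
P181, all partitions with few rows, row Y1: the mixed family.
-/

set_option autoImplicit false

namespace Vale.Agent.P181.FR.H866

open Vale.Agent.P181 Vale.Agent.P181.H280 Vale.Agent.P181.FR

variable {i m : ℕ}

/-! ### Algebraic part -/

/-- The product of the two by two minors of the pairs. -/
noncomputable def DZ (h2 : 2 ≤ m) (τ : Tau i) : (Fin (2 * i - 1 + 1) → Fin m → ℂ) → ℂ :=
  fun p => ∏ u : Fin i, H350.dt 2 m h2 (fun a => p (τ (![Sum.inl u, Sum.inr u] a)))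

lemma dt_two (h2 : 2 ≤ m) (p : Fin 2 → Fin m → ℂ) : H350.dt 2 m h2 p =
    p 0 (Fin.castLE h2 0) * p 1 (Fin.castLE h2 1) - p 0 (Fin.castLE h2 1) * p 1 (Fin.castLE h2 0) := by
  rw [H350.dt, Matrix.det_fin_two]
  rfl

lemma DZ_mem (h2 : 2 ≤ m) (τ : Tau i) : DZ h2 τ ∈ MP (2 * i - 1 + 1) m 1 := by
  classical
  have h : DZ h2 τ = ∑ σ : Fin i → Equiv.Perm (Fin 2),
      (∏ u, ((Equiv.Perm.sign (σ u) : ℤ) : ℂ)) •
        (fun p : Fin (2 * i - 1 + 1) → Fin m → ℂ => ∏ j, p j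
          (Sum.elim (fun u => Fin.castLE h2 (σ u 0)) (fun u => Fin.castLE h2 (σ u 1))
            (τ.symm j))) := by
    funext p
    rw [DZ]
    simp only [dt_expand, Finset.prod_univ_sum, Finset.sum_apply, Pi.smul_apply, smul_eq_mul]
    rw [Fintype.piFinset_univ]
    refine Finset.sum_congr rfl fun σ _ => ?_
    rw [Finset.prod_mul_distrib]
    congr 1
    rw [← Equiv.prod_comp τ, Fintype.prod_sum_type, ← Finset.prod_mul_distrib]
    refine Finset.prod_congr rfl fun u _ => ?_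
    rw [Fin.prod_univ_two]
    simp only [Equiv.symm_apply_apply, Sum.elim_inl, Sum.elim_inr, Matrix.cons_val_zero,
      Matrix.cons_val_one]
  rw [h]
  refine Submodule.sum_mem _ fun σ _ => Submodule.smul_mem _ _ ?_
  exact MP_coord _

lemma DZ_HWF (h2 : 2 ≤ m) (τ : Tau i) : HWF (2 * i - 1 + 1) m (i • om m 2) (DZ h2 τ) := by
  intro g hg p
  rw [DZ, DZ, H350.prod_om h2 (fun k => g k k) i]
  have h1 : ∀ u : Fin i, H350.dt 2 m h2 (fun a => Matrix.vecMul
      (p (τ ((![Sum.inl u, Sum.inr u] : Fin 2 → Fin i ⊕ Fin i) a))) g) =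
      (∏ k : Fin 2, g (Fin.castLE h2 k) (Fin.castLE h2 k)) *
        H350.dt 2 m h2 (fun a => p (τ ((![Sum.inl u, Sum.inr u] : Fin 2 → Fin i ⊕ Fin i) a))) :=
    fun u => H350.dt_borel h2 hg _
  simp only [h1, Finset.prod_mul_distrib, Finset.prod_const, Finset.card_univ, Fintype.card_fin]

/-- The square of the product of the two by two minors of the pairs. -/
noncomputable def ZT (h2 : 2 ≤ m) (τ : Tau i) : (Fin (2 * i - 1 + 1) → Fin m → ℂ) → ℂ :=
  DZ h2 τ ^ 2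

lemma ZT_mem (h2 : 2 ≤ m) (τ : Tau i) : ZT h2 τ ∈ MP (2 * i - 1 + 1) m 2 :=
  MP_pow (DZ_mem h2 τ) 2

lemma ZT_HWF (h2 : 2 ≤ m) (τ : Tau i) :
    HWF (2 * i - 1 + 1) m ((2 * i) • om m 2) (ZT h2 τ) := by
  have h := HWF_pow (DZ_HWF h2 τ) 2
  rwa [smul_smul] at h

lemma ZT_perm (h2 : 2 ≤ m) (τ : Tau i) (σ : Equiv.Perm (Fin (2 * i - 1 + 1)))
    (p : Fin (2 * i - 1 + 1) → Fin m → ℂ) :
    ZT h2 τ (fun j => p (σ j)) = ZT h2 (τ.trans σ) p := rfl

/-- The sum. -/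
noncomputable def A1 (h2 : 2 ≤ m) : (Fin (2 * i - 1 + 1) → Fin m → ℂ) → ℂ :=
  ∑ τ : Tau i, ZT h2 τ

/-- The product. -/
noncomputable def A3 (h2 : 2 ≤ m) : (Fin (2 * i - 1 + 1) → Fin m → ℂ) → ℂ :=
  ∏ τ : Tau i, ZT h2 τ

lemma A1_perm (h2 : 2 ≤ m) (σ : Equiv.Perm (Fin (2 * i - 1 + 1)))
    (p : Fin (2 * i - 1 + 1) → Fin m → ℂ) : A1 h2 (fun j => p (σ j)) = A1 h2 p := by
  rw [A1, Finset.sum_apply, Finset.sum_apply]
  exact Equiv.sum_comp (rel σ) (fun τ => ZT h2 τ p)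

lemma A3_perm (h2 : 2 ≤ m) (σ : Equiv.Perm (Fin (2 * i - 1 + 1)))
    (p : Fin (2 * i - 1 + 1) → Fin m → ℂ) : A3 h2 (fun j => p (σ j)) = A3 h2 p := by
  rw [A3, Finset.prod_apply, Finset.prod_apply]
  exact Equiv.prod_comp (rel σ) (fun τ => ZT h2 τ p)

/-- The mixed family. -/
noncomputable def GM (h2 : 2 ≤ m) (him : i ≤ m) (α β γ δ : ℕ) :
    (Fin (2 * i - 1 + 1) → Fin m → ℂ) → ℂ :=
  A3 h2 ^ α * A1 h2 ^ β * (F3 him ^ γ * F1 him ^ δ)

lemma GM_perm (h2 : 2 ≤ m) (him : i ≤ m) (α β γ δ : ℕ)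
    (σ : Equiv.Perm (Fin (2 * i - 1 + 1))) (p : Fin (2 * i - 1 + 1) → Fin m → ℂ) :
    GM h2 him α β γ δ (fun j => p (σ j)) = GM h2 him α β γ δ p := by
  simp only [GM, Pi.mul_apply, Pi.pow_apply, F1_perm, F3_perm, A1_perm, A3_perm]

lemma GM_diag (h2 : 2 ≤ m) (hi : 2 ≤ i) (him : i ≤ m) (α β γ δ : ℕ) (hγ : γ ≠ 0)
    (p : Fin (2 * i - 1 + 1) → Fin m → ℂ)
    (u v : Fin (2 * i - 1 + 1)) (huv : u ≠ v) (h : p u = p v) : GM h2 him α β γ δ p = 0 := by
  rw [GM, Pi.mul_apply, Pi.mul_apply (F3 him ^ γ), Pi.pow_apply (F3 him),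
    F3_diag hi him p u v huv h, zero_pow hγ, zero_mul, mul_zero]

lemma GM_mem (h2 : 2 ≤ m) (him : i ≤ m) (α β γ δ : ℕ) : GM h2 him α β γ δ ∈
    MP (2 * i - 1 + 1) m (α * (Fintype.card (Tau i) * 2) + β * 2 +
      (γ * (Fintype.card (Tau i) * 2) + δ * 2)) := by
  have e1 : A1 (i := i) h2 ∈ MP (2 * i - 1 + 1) m 2 := Submodule.sum_mem _ fun τ _ => ZT_mem h2 τ
  have e3 : A3 (i := i) h2 ∈ MP (2 * i - 1 + 1) m (Fintype.card (Tau i) * 2) := by
    have h3 := MP_prod (ZT_mem (i := i) h2) Finset.univ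
    rwa [Finset.card_univ] at h3
  have h1 : F1 him ∈ MP (2 * i - 1 + 1) m 2 := Submodule.sum_mem _ fun τ _ => YT_mem him τ
  have h3 : F3 him ∈ MP (2 * i - 1 + 1) m (Fintype.card (Tau i) * 2) := by
    have h3 := MP_prod (YT_mem him) Finset.univ
    rwa [Finset.card_univ] at h3
  exact MP_mul (MP_mul (MP_pow e3 α) (MP_pow e1 β)) (MP_mul (MP_pow h3 γ) (MP_pow h1 δ))

lemma GM_HWF (h2 : 2 ≤ m) (him : i ≤ m) (α β γ δ : ℕ) : HWF (2 * i - 1 + 1) m
    ((α * (Fintype.card (Tau i) * (2 * i)) + β * (2 * i)) • om m 2 +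
      (γ * (Fintype.card (Tau i) * 4) + δ * 4) • om m i) (GM h2 him α β γ δ) := by
  have e1 : HWF (2 * i - 1 + 1) m ((2 * i) • om m 2) (A1 (i := i) h2) :=
    HWF_sum _ fun τ _ => ZT_HWF h2 τ
  have e3 : HWF (2 * i - 1 + 1) m (Fintype.card (Tau i) • ((2 * i) • om m 2))
      (A3 (i := i) h2) := by
    have h3 := HWF_prod (ZT_HWF (i := i) h2) Finset.univ
    rwa [Finset.card_univ] at h3
  have h1 : HWF (2 * i - 1 + 1) m (4 • om m i) (F1 him) :=
    HWF_sum _ fun τ _ => YT_HWF him τ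
  have h3 : HWF (2 * i - 1 + 1) m (Fintype.card (Tau i) • (4 • om m i)) (F3 him) := by
    have h3 := HWF_prod (YT_HWF him) Finset.univ
    rwa [Finset.card_univ] at h3
  have h4 := HWF_mul (HWF_mul (HWF_pow e3 α) (HWF_pow e1 β)) (HWF_mul (HWF_pow h3 γ) (HWF_pow h1 δ))
  simp only [smul_smul, ← add_smul] at h4
  exact h4

/-! ### The curve -/

open Polynomial

/-- The two by two minor on the curve. -/
noncomputable def mz (i L : ℕ) (x y : Fin (2 * i - 1 + 1)) : ℝ[X] :=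
  pt i L x 0 * pt i L y 1 - pt i L x 1 * pt i L y 0

/-- Its degree. -/
def ez (i L : ℕ) (x y : Fin (2 * i - 1 + 1)) : ℕ :=
  if x = Fin.last (2 * i - 1) then (if (y : ℕ) = 0 then L - 1 else L)
  else if y = Fin.last (2 * i - 1) then (if (x : ℕ) = 0 then L - 1 else L) else 0

lemma NZ.neg {p : ℝ[X]} {d : ℕ} (hp : NZ p d) : NZ (-p) d := by
  refine ⟨by rw [natDegree_neg]; exact hp.1, ?_⟩
  rw [coeff_neg]
  exact neg_ne_zero.2 hp.2

lemma NZ.prod {ι : Type*} [DecidableEq ι] {p : ι → ℝ[X]} {d : ι → ℕ} (S : Finset ι)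
    (h : ∀ x ∈ S, NZ (p x) (d x)) : NZ (∏ x ∈ S, p x) (∑ x ∈ S, d x) := by
  induction S using Finset.induction_on with
  | empty => exact ⟨by simp, by simp⟩
  | insert x S hx ih =>
    rw [Finset.prod_insert hx, Finset.sum_insert hx]
    exact (h x (Finset.mem_insert_self _ _)).mul
      (ih fun y hy => h y (Finset.mem_insert_of_mem hy))

lemma mz_last {L : ℕ} (hL : 2 ≤ L) {y : Fin (2 * i - 1 + 1)} (hy : y ≠ Fin.last (2 * i - 1)) :
    NZ (mz i L (Fin.last (2 * i - 1)) y) (if (y : ℕ) = 0 then L - 1 else L) := by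
  have h1 : mz i L (Fin.last (2 * i - 1)) y = X ^ L * C ((y : ℕ) : ℝ) +
      X ^ (L - 1) * C (((y : ℕ) : ℝ) - 1) + C (((y : ℕ) : ℝ) - (2 * i - 1 : ℕ)) := by
    rw [mz, pt, pt, pt, pt, if_pos rfl, if_pos rfl, if_neg hy, if_neg hy, Fin.val_last]
    simp only [pow_zero, pow_one, map_one, map_zero, map_sub]
    ring
  rw [h1]
  split_ifs with h0
  · rw [h0]
    simp only [Nat.cast_zero, C_0, mul_zero, zero_add, zero_sub]
    refine ⟨?_, ?_⟩
    · refine (natDegree_add_le _ _).trans (max_le ?_ ?_)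
      · exact (natDegree_mul_C_le _ _).trans (natDegree_X_pow_le _)
      · rw [natDegree_C]; exact Nat.zero_le _
    · rw [coeff_add, coeff_mul_C, coeff_X_pow_self, coeff_C, if_neg (by omega)]
      norm_num
  · refine ⟨?_, ?_⟩
    · refine (natDegree_add_le _ _).trans (max_le ((natDegree_add_le _ _).trans (max_le ?_ ?_)) ?_)
      · exact (natDegree_mul_C_le _ _).trans (natDegree_X_pow_le _)
      · exact (natDegree_mul_C_le _ _).trans ((natDegree_X_pow_le _).trans (Nat.sub_le _ _))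
      · rw [natDegree_C]; exact Nat.zero_le _
    · rw [coeff_add, coeff_add, coeff_mul_C, coeff_X_pow_self, coeff_mul_C,
        coeff_X_pow, if_neg (by omega), coeff_C, if_neg (by omega), one_mul, zero_mul, add_zero,
        add_zero]
      exact_mod_cast h0

lemma mz_NZ {L : ℕ} (hL : 2 ≤ L) {x y : Fin (2 * i - 1 + 1)} (hxy : x ≠ y) :
    NZ (mz i L x y) (ez i L x y) := by
  rw [ez]
  by_cases hx : x = Fin.last (2 * i - 1)
  · rw [if_pos hx, hx]
    exact mz_last hL fun h => hxy (hx.trans h.symm)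
  · rw [if_neg hx]
    by_cases hy : y = Fin.last (2 * i - 1)
    · rw [if_pos hy, hy]
      have h1 : mz i L x (Fin.last (2 * i - 1)) = -mz i L (Fin.last (2 * i - 1)) x := by
        rw [mz, mz]; ring
      rw [h1]
      exact (mz_last hL hx).neg
    · rw [if_neg hy]
      have h1 : mz i L x y = C (((y : ℕ) : ℝ) - ((x : ℕ) : ℝ)) := by
        rw [mz, pt, pt, pt, pt, if_neg hx, if_neg hx, if_neg hy, if_neg hy]
        simp only [pow_zero, pow_one, map_one, map_sub]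
        ring
      rw [h1]
      refine ⟨by rw [natDegree_C], ?_⟩
      rw [coeff_C_zero]
      refine sub_ne_zero.2 fun h => hxy (Fin.ext ?_)
      exact_mod_cast h.symm

/-- The last point is paired with the point `0`. -/
def Bad (τ : Tau i) : Prop := ∃ u : Fin i,
  (τ (Sum.inl u) = Fin.last (2 * i - 1) ∧ (τ (Sum.inr u) : ℕ) = 0) ∨
    (τ (Sum.inr u) = Fin.last (2 * i - 1) ∧ (τ (Sum.inl u) : ℕ) = 0)

open Classical in
/-- The degree of the product. -/
noncomputable def eZ (L : ℕ) (τ : Tau i) : ℕ := if Bad τ then L - 1 else L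

lemma sum_ez {L : ℕ} (τ : Tau i) :
    ∑ u : Fin i, ez i L (τ (Sum.inl u)) (τ (Sum.inr u)) = eZ L τ := by
  classical
  rcases h : τ.symm (Fin.last (2 * i - 1)) with u₀ | u₀
  · have hl : τ (Sum.inl u₀) = Fin.last (2 * i - 1) := by rw [← h, Equiv.apply_symm_apply]
    rw [Finset.sum_eq_single u₀]
    · rw [ez, if_pos hl, eZ]
      by_cases h0 : (τ (Sum.inr u₀) : ℕ) = 0
      · rw [if_pos h0, if_pos ⟨u₀, Or.inl ⟨hl, h0⟩⟩]
      · rw [if_neg h0, if_neg]
        rintro ⟨u, ⟨h1, h2⟩ | ⟨h1, h2⟩⟩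
        · have h3 : u = u₀ := Sum.inl_injective (τ.injective (h1.trans hl.symm))
          rw [h3] at h2
          exact h0 h2
        · exact absurd (τ.injective (h1.trans hl.symm)) (by simp)
    · intro u _ hu
      rw [ez, if_neg, if_neg]
      · intro h1
        exact absurd (τ.injective (h1.trans hl.symm)) (by simp)
      · intro h1
        exact hu (Sum.inl_injective (τ.injective (h1.trans hl.symm)))
    · intro h1
      exact absurd (Finset.mem_univ _) h1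
  · have hl : τ (Sum.inr u₀) = Fin.last (2 * i - 1) := by rw [← h, Equiv.apply_symm_apply]
    rw [Finset.sum_eq_single u₀]
    · rw [ez, if_neg, if_pos hl, eZ]
      · by_cases h0 : (τ (Sum.inl u₀) : ℕ) = 0
        · rw [if_pos h0, if_pos ⟨u₀, Or.inr ⟨hl, h0⟩⟩]
        · rw [if_neg h0, if_neg]
          rintro ⟨u, ⟨h1, h2⟩ | ⟨h1, h2⟩⟩
          · exact absurd (τ.injective (h1.trans hl.symm)) (by simp)
          · have h3 : u = u₀ := Sum.inr_injective (τ.injective (h1.trans hl.symm))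
            rw [h3] at h2
            exact h0 h2
      · intro h1
        exact absurd (τ.injective (h1.trans hl.symm)) (by simp)
    · intro u _ hu
      rw [ez, if_neg, if_neg]
      · intro h1
        exact hu (Sum.inr_injective (τ.injective (h1.trans hl.symm)))
      · intro h1
        exact absurd (τ.injective (h1.trans hl.symm)) (by simp)
    · intro h1
      exact absurd (Finset.mem_univ _) h1

/-- The product of the minors on the curve. -/
noncomputable def dz (L : ℕ) (τ : Tau i) : ℝ[X] :=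
  ∏ u : Fin i, mz i L (τ (Sum.inl u)) (τ (Sum.inr u))

lemma dz_NZ {L : ℕ} (hL : 2 ≤ L) (τ : Tau i) : NZ (dz L τ) (eZ L τ) := by
  classical
  have h := NZ.prod (Finset.univ : Finset (Fin i)) (fun u _ => mz_NZ (L := L) hL
    (x := τ (Sum.inl u)) (y := τ (Sum.inr u)) (fun h => absurd (τ.injective h) (by simp)))
  rwa [sum_ez] at h

/-- The polynomials on the curve. -/
noncomputable def zz (L : ℕ) (τ : Tau i) : ℝ[X] := dz L τ ^ 2

lemma zz_IP {L : ℕ} (hL : 2 ≤ L) (τ : Tau i) : IP (zz L τ) (2 * eZ L τ) := (dz_NZ hL τ).sqr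

lemma eZ_le {L : ℕ} (τ : Tau i) : eZ L τ ≤ L := by
  rw [eZ]
  split_ifs
  · exact Nat.sub_le _ _
  · exact le_rfl

/-- The number of splittings in which the last point is paired with the point `0`. -/
noncomputable def n0 (i : ℕ) : ℕ := by
  classical
  exact (Finset.univ.filter fun τ : Tau i => Bad τ).card

/-- The degree of the product. -/
noncomputable def EZ (i L : ℕ) : ℕ := ∑ τ : Tau i, eZ L τ

lemma EZ_eq {L : ℕ} (hL : 2 ≤ L) : EZ i L + n0 i = L * Fintype.card (Tau i) := by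
  classical
  have h : ∀ τ : Tau i, eZ L τ + (if Bad τ then 1 else 0) = L := by
    intro τ
    rw [eZ]
    split_ifs
    · omega
    · omega
  have h2 := Finset.sum_congr (rfl : (Finset.univ : Finset (Tau i)) = Finset.univ)
    fun τ _ => h τ
  rw [Finset.sum_add_distrib, Finset.sum_const, Finset.card_univ, smul_eq_mul,
    mul_comm (Fintype.card (Tau i)), Finset.sum_boole] at h2
  simpa [EZ, n0] using h2

lemma n0_le : n0 i ≤ Fintype.card (Tau i) := by
  classical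
  rw [n0]
  exact Finset.card_le_univ _

/-- Splittings with two prescribed values. -/
lemma exists_pair (hi : 3 ≤ i) (b : Bool) : ∃ τ : Tau i,
    τ (Sum.inl ⟨0, by omega⟩) = Fin.last (2 * i - 1) ∧
      τ (if b then Sum.inr ⟨0, by omega⟩ else Sum.inl ⟨1, by omega⟩) = idx i 0 (by omega) := by
  have hl0 : Fin.last (2 * i - 1) ≠ idx i 0 (by omega) := by
    rw [Ne, Fin.ext_iff, idx, Fin.val_last]
    simp only
    omega
  obtain ⟨τ, hτ⟩ := exists_tau (i := i) (k := 2)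
    ⟨![Sum.inl ⟨0, by omega⟩, if b then Sum.inr ⟨0, by omega⟩ else Sum.inl ⟨1, by omega⟩], by
      intro x y hxy
      cases b <;> fin_cases x <;> fin_cases y <;> simp_all⟩
    ⟨![Fin.last (2 * i - 1), idx i 0 (by omega)], by
      intro x y hxy
      fin_cases x <;> fin_cases y <;> simp_all [hl0.symm]⟩ (by omega)
  exact ⟨τ, hτ 0, hτ 1⟩

lemma n0_pos (hi : 3 ≤ i) : 1 ≤ n0 i := by
  classical
  obtain ⟨τ, h1, h2⟩ := exists_pair hi true
  rw [n0]
  refine Finset.card_pos.2 ⟨τ, Finset.mem_filter.2 ⟨Finset.mem_univ _, ⟨0, by omega⟩,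
    Or.inl ⟨h1, ?_⟩⟩⟩
  rw [if_pos rfl] at h2
  rw [h2]
  rfl

lemma exists_eZ_L (hi : 3 ≤ i) (L : ℕ) : ∃ τ : Tau i, eZ L τ = L := by
  obtain ⟨τ, h1, h2⟩ := exists_pair hi false
  rw [if_neg (by simp)] at h2
  refine ⟨τ, ?_⟩
  rw [eZ, if_neg]
  rintro ⟨u, ⟨h3, h4⟩ | ⟨h3, h4⟩⟩
  · have h5 : τ (Sum.inr u) = idx i 0 (by omega) := Fin.ext h4
    exact absurd (τ.injective (h5.trans h2.symm)) (by simp)
  · exact absurd (τ.injective (h3.trans h1.symm)) (by simp)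

/-- The sum on the curve. -/
noncomputable def a1 (i L : ℕ) : ℝ[X] := ∑ τ : Tau i, zz L τ

/-- The product on the curve. -/
noncomputable def a3 (i L : ℕ) : ℝ[X] := ∏ τ : Tau i, zz L τ

/-- The family on the curve. -/
noncomputable def gm (i L α β γ δ : ℕ) : ℝ[X] :=
  a3 i L ^ α * a1 i L ^ β * (f3 i L ^ γ * f1 i L ^ δ)

lemma a1_IP {L : ℕ} (hL : 2 ≤ L) (hi : 3 ≤ i) : IP (a1 i L) (2 * L) := by
  obtain ⟨τ₀, hτ₀⟩ := exists_eZ_L hi L
  exact IP.sum _ (fun τ _ => zz_IP hL τ) (fun τ _ => Nat.mul_le_mul_left 2 (eZ_le τ))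
    (Finset.mem_univ τ₀) (by rw [hτ₀])

lemma a3_IP {L : ℕ} (hL : 2 ≤ L) : IP (a3 i L) (2 * EZ i L) := by
  classical
  have h := IP.prod (Finset.univ : Finset (Tau i)) (fun τ _ => zz_IP hL τ)
  rwa [← Finset.mul_sum] at h

lemma gm_IP {L : ℕ} (hL : 2 ≤ L) (hi : 3 ≤ i) (α β γ δ : ℕ) :
    IP (gm i L α β γ δ) (α * (2 * EZ i L) + β * (2 * L) + (γ * (2 * EE i L) + δ * (2 * L))) :=
  (((a3_IP hL).pow α).mul ((a1_IP hL hi).pow β)).mul
    (((f3_IP hL hi).pow γ).mul ((f1_IP hL hi).pow δ))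

lemma ZT_eval (h2 : 2 ≤ m) (hi : 2 ≤ i) (him : i ≤ m) (L : ℕ) (t : ℂ) (τ : Tau i) :
    ZT h2 τ (pp i m L t) = aeval t (zz L τ) := by
  rw [ZT, Pi.pow_apply, DZ, zz, dz, map_pow, map_prod]
  congr 1
  refine Finset.prod_congr rfl fun u _ => ?_
  have h0 : Fin.castLE h2 0 = Fin.castLE him (⟨0, by omega⟩ : Fin i) := rfl
  have h1 : Fin.castLE h2 1 = Fin.castLE him (⟨1, by omega⟩ : Fin i) := rfl
  rw [dt_two, h0, h1, pp_eval, pp_eval, pp_eval, pp_eval, mz, map_sub, map_mul, map_mul]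
  rfl

lemma GM_eval (h2 : 2 ≤ m) (hi : 2 ≤ i) (him : i ≤ m) (L : ℕ) (t : ℂ) (α β γ δ : ℕ) :
    GM h2 him α β γ δ (pp i m L t) = aeval t (gm i L α β γ δ) := by
  rw [GM, gm, Pi.mul_apply, Pi.mul_apply, Pi.mul_apply, Pi.pow_apply, Pi.pow_apply, Pi.pow_apply,
    Pi.pow_apply, A1, A3, F1, F3, a1, a3,
    f1, f3, Finset.sum_apply, Finset.sum_apply, Finset.prod_apply, Finset.prod_apply, map_mul,
    map_mul, map_mul, map_pow, map_pow, map_pow, map_pow, map_sum, map_sum, map_prod, map_prod]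
  simp only [YT_eval, ZT_eval h2 hi him]

/-- The degrees are distinct. -/
lemma degrees2 {N h1 h2 n0 n1 n2 E Z L : ℕ} (hL : L = 2 * N * h1 + 2) (hn0 : 1 ≤ n0)
    (hn0N : n0 ≤ N) (hn2 : 1 ≤ n2) (hZ : Z + n0 = L * N) (hE : E + L * n2 + n1 = L * N)
    {r k r' k' : ℕ} (hr : r < h1) (hk : k < h2) (hr' : r' < h1) (hk' : k' < h2)
    (h3 : (1 + r) * (2 * Z) + N * (h1 - r) * (2 * L) +
        ((1 + k) * (2 * E) + N * (h2 - k) * (2 * L)) =
      (1 + r') * (2 * Z) + N * (h1 - r') * (2 * L) +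
        ((1 + k') * (2 * E) + N * (h2 - k') * (2 * L))) : r = r' ∧ k = k' := by
  obtain ⟨a, rfl⟩ : ∃ a, h1 = r + a := ⟨h1 - r, by omega⟩
  obtain ⟨b, rfl⟩ : ∃ b, h2 = k + b := ⟨h2 - k, by omega⟩
  obtain ⟨a', ha'⟩ : ∃ a', r + a = r' + a' := ⟨r + a - r', by omega⟩
  obtain ⟨b', hb'⟩ : ∃ b', k + b = k' + b' := ⟨k + b - k', by omega⟩
  have s1 : r + a - r = a := by omega
  have s2 : k + b - k = b := by omega
  have s3 : r + a - r' = a' := by omega
  have s4 : k + b - k' = b' := by omega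
  rw [s1, s2, s3, s4] at h3
  have h3' : (1 + (r : ℤ)) * (2 * Z) + N * a * (2 * L) + ((1 + k) * (2 * E) + N * b * (2 * L)) =
      (1 + r') * (2 * Z) + N * a' * (2 * L) + ((1 + k') * (2 * E) + N * b' * (2 * L)) := by
    exact_mod_cast h3
  have hZ' : (Z : ℤ) = L * N - n0 := by
    have : (Z : ℤ) + n0 = L * N := by exact_mod_cast hZ
    linarith
  have hE' : (E : ℤ) = L * N - L * n2 - n1 := by
    have : (E : ℤ) + L * n2 + n1 = L * N := by exact_mod_cast hE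
    linarith
  have ha : (a' : ℤ) = r + a - r' := by
    have : (r : ℤ) + a = r' + a' := by exact_mod_cast ha'
    linarith
  have hb : (b' : ℤ) = k + b - k' := by
    have : (k : ℤ) + b = k' + b' := by exact_mod_cast hb'
    linarith
  have h4 : (n0 : ℤ) * (r - r') = (L * n2 + n1) * (k' - k) := by
    rw [hZ', hE', ha, hb] at h3'
    apply mul_left_cancel₀ (two_ne_zero : (2 : ℤ) ≠ 0)
    linear_combination -h3'
  have h5 : |(n0 : ℤ) * (r - r')| < L := by
    rw [abs_mul, Nat.abs_cast]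
    have e0 : |(r : ℤ) - r'| ≤ (r + a : ℕ) := by
      rw [abs_le]
      constructor <;> omega
    have e1 : (n0 : ℤ) * |(r : ℤ) - r'| ≤ N * (r + a : ℕ) :=
      mul_le_mul (by exact_mod_cast hn0N) e0 (abs_nonneg _) (by positivity)
    have e2 : (L : ℤ) = 2 * N * (r + a : ℕ) + 2 := by rw [hL]; push_cast; ring
    have e3 : (0 : ℤ) ≤ N * (r + a : ℕ) := by positivity
    rw [e2]
    linarith
  have hk0 : (k' : ℤ) - k = 0 := by
    by_contra hne
    have e1 : 1 ≤ |(k' : ℤ) - k| := Int.one_le_abs hne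
    rw [h4, abs_mul] at h5
    have e2 : (L : ℤ) ≤ |(L : ℤ) * n2 + n1| := by
      have e3 : (L : ℤ) * 1 ≤ L * n2 := mul_le_mul_of_nonneg_left (by exact_mod_cast hn2)
        (by positivity)
      have e4 : (0 : ℤ) ≤ n1 := by positivity
      exact le_trans (by linarith) (le_abs_self _)
    have e5 : |(L : ℤ) * n2 + n1| * 1 ≤ |(L : ℤ) * n2 + n1| * |(k' : ℤ) - k| :=
      mul_le_mul_of_nonneg_left e1 (abs_nonneg _)
    linarith
  rw [hk0, mul_zero] at h4
  have hr0 : (r : ℤ) - r' = 0 := by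
    rcases mul_eq_zero.1 h4 with h6 | h6
    · exfalso
      have : n0 = 0 := by exact_mod_cast h6
      omega
    · exact h6
  constructor <;> omega

lemma n2_pos (hi : 3 ≤ i) : 1 ≤ n2 i := by
  classical
  obtain ⟨τ, h1, h2, h3⟩ := exists_three hi ![true, true, true]
  rw [n2]
  refine Finset.card_pos.2 ⟨τ, Finset.mem_filter.2 ⟨Finset.mem_univ _, ?_, ?_⟩⟩
  · rw [same_iff (by omega), h2, h1]
    rfl
  · rw [same_iff (by omega), h3, h1]
    rfl

lemma arith_GM (N h r c : ℕ) (hr : r ≤ h) :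
    (1 + r) * (N * c) + N * (h - r) * c = c * N * (h + 1) := by
  obtain ⟨a, rfl⟩ := Nat.exists_eq_add_of_le hr
  rw [Nat.add_sub_cancel_left]
  ring

end Vale.Agent.P181.FR.H866

namespace Vale.Agent.P181.FR

open Vale.Agent.P181 Vale.Agent.P181.H280 Vale.Agent.P181.FR.H866 Polynomial

/-- **Row Y1.** -/
theorem family2 {m i : ℕ} (hi : 3 ≤ i) (him : i ≤ m) :
    ∃ (N : ℕ) (P : Fin (2 * i - 1) → Fin m → ℂ), 0 < N ∧ ∀ h1 h2 : ℕ,
    ∃ G : Fin h1 → Fin h2 → ((Fin (2 * i - 1 + 1) → Fin m → ℂ) → ℂ),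
      (∀ r k, G r k ∈ MP (2 * i - 1 + 1) m (2 * N * (h1 + 1) + 2 * N * (h2 + 1))) ∧
      (∀ r k (σ : Equiv.Perm (Fin (2 * i - 1 + 1))) p, G r k (fun j => p (σ j)) = G r k p) ∧
      (∀ r k, HWF (2 * i - 1 + 1) m
        ((2 * i * N * (h1 + 1)) • om m 2 + (4 * N * (h2 + 1)) • om m i) (G r k)) ∧
      (∀ r k p (u v : Fin (2 * i - 1 + 1)), u ≠ v → p u = p v → G r k p = 0) ∧
      LinearIndependent ℂ (fun rk : Fin h1 × Fin h2 => fun q : Fin m → ℂ =>
        G rk.1 rk.2 (Fin.snoc (α := fun _ => Fin m → ℂ) P q)) := by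
  classical
  have h2m : 2 ≤ m := by omega
  set N := Fintype.card (Tau i) with hN
  have hNpos : 0 < N := lt_of_lt_of_le (n0_pos hi) n0_le
  refine ⟨N, PP i m, hNpos, fun h1 h2 => ?_⟩
  refine ⟨fun r k => GM h2m him (1 + r) (N * (h1 - r)) (1 + k) (N * (h2 - k)), fun r k => ?_,
    fun r k σ p => GM_perm h2m him _ _ _ _ σ p, fun r k => ?_,
    fun r k p u v huv hp => GM_diag h2m (by omega) him _ _ _ _ (by omega) p u v huv hp, ?_⟩
  · have h := GM_mem h2m him (1 + (r : ℕ)) (N * (h1 - r)) (1 + (k : ℕ)) (N * (h2 - k))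
    rw [← hN, arith_GM N h1 r 2 r.2.le, arith_GM N h2 k 2 k.2.le] at h
    exact h
  · have h := GM_HWF h2m him (1 + (r : ℕ)) (N * (h1 - r)) (1 + (k : ℕ)) (N * (h2 - k))
    rw [← hN, arith_GM N h1 r (2 * i) r.2.le, arith_GM N h2 k 4 k.2.le] at h
    exact h
  set L := 2 * N * h1 + 2 with hL
  have hL2 : 2 ≤ L := by omega
  rw [linearIndependent_iff']
  intro S g hg
  set q : Fin h1 × Fin h2 → ℝ[X] := fun rk =>
    gm i L (1 + rk.1) (N * (h1 - rk.1)) (1 + rk.2) (N * (h2 - rk.2)) with hq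
  have hqIP : ∀ rk, IP (q rk) ((1 + (rk.1 : ℕ)) * (2 * EZ i L) + N * (h1 - rk.1) * (2 * L) +
      ((1 + (rk.2 : ℕ)) * (2 * EE i L) + N * (h2 - rk.2) * (2 * L))) :=
    fun rk => gm_IP hL2 hi _ _ _ _
  have hQ : ∑ rk ∈ S, C (g rk) * (q rk).map (algebraMap ℝ ℂ) = 0 := by
    apply Polynomial.funext
    intro t
    have h1 := congrFun hg (qq i m L t)
    rw [Finset.sum_apply, Pi.zero_apply] at h1
    rw [eval_zero, eval_finsetSum, ← h1]
    refine Finset.sum_congr rfl fun rk _ => ?_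
    rw [eval_mul, eval_C, Pi.smul_apply, smul_eq_mul, eval_map]
    congr 1
    exact (GM_eval h2m (by omega) him L t _ _ _ _).symm
  have hne : ∀ rk, (q rk).map (algebraMap ℝ ℂ) ≠ 0 := by
    intro rk h1
    exact (hqIP rk).ne_zero ((Polynomial.map_eq_zero_iff (algebraMap ℝ ℂ).injective).1 h1)
  have hdeg : ∀ rk, g rk ≠ 0 → (C (g rk) * (q rk).map (algebraMap ℝ ℂ)).degree =
      (((1 + (rk.1 : ℕ)) * (2 * EZ i L) + N * (h1 - rk.1) * (2 * L) +
      ((1 + (rk.2 : ℕ)) * (2 * EE i L) + N * (h2 - rk.2) * (2 * L)) : ℕ) : WithBot ℕ) := by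
    intro rk h1
    rw [degree_C_mul h1, degree_map, degree_eq_natDegree (hqIP rk).ne_zero,
      (hqIP rk).natDegree]
  have hsup := Polynomial.degree_sum_eq_of_disjoint
    (fun rk : Fin h1 × Fin h2 => C (g rk) * (q rk).map (algebraMap ℝ ℂ)) S (by
      rintro x ⟨_, hx⟩ y ⟨_, hy⟩ hxy
      have hx' : g x ≠ 0 := fun h1 => hx (by rw [h1, C_0, zero_mul])
      have hy' : g y ≠ 0 := fun h1 => hy (by rw [h1, C_0, zero_mul])
      intro h1
      simp only [Function.comp_apply] at h1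
      rw [hdeg x hx', hdeg y hy'] at h1
      have h2 := WithBot.coe_inj.1 h1
      obtain ⟨e1, e2⟩ := degrees2 hL (n0_pos hi) n0_le (n2_pos hi) (EZ_eq hL2) (EE_eq hL2)
        x.1.2 x.2.2 y.1.2 y.2.2 h2
      exact hxy (Prod.ext (Fin.ext e1) (Fin.ext e2)))
  rw [hQ, degree_zero] at hsup
  intro rk hrk
  by_contra hgrk
  have hbot : (C (g rk) * (q rk).map (algebraMap ℝ ℂ)).degree ≤ ⊥ := by
    rw [hsup]
    exact Finset.le_sup (f := fun rk : Fin h1 × Fin h2 =>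
      (C (g rk) * (q rk).map (algebraMap ℝ ℂ)).degree) hrk
  rw [le_bot_iff, degree_eq_bot] at hbot
  rcases mul_eq_zero.1 hbot with h3 | h3
  · exact hgrk (C_eq_zero.1 h3)
  · exact hne rk h3

end Vale.Agent.P181.FR
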